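import Mathlib

/-! Effective conductance through the Dirichlet principle, and the edge marginal `marg`. -/

namespace Vale.Agent.P143

open Filter Topology Finset unitInterval

variable {V : Type*}

/-- squared increment of `f` along an unordered pair -/
noncomputable def sq (f : V → I) : Sym2 V → ℝ :=
  Sym2.lift ⟨fun x y => ((f x : ℝ) - f y) ^ 2, fun x y => by ring⟩

@[simp] lemma sq_mk (f : V → I) (x y : V) : sq f s(x, y) = ((f x : ℝ) - f y) ^ 2 := rfl

lemma sq_nonneg' (f : V → I) (e : Sym2 V) : 0 ≤ sq f e := by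
  induction e using Sym2.ind with
  | _ x y => simp only [sq_mk]; positivity

lemma continuous_sq (e : Sym2 V) : Continuous fun f : V → I => sq f e := by
  induction e using Sym2.ind with
  | _ x y => simp only [sq_mk]; fun_prop

/-- energy -/
noncomputable def energy (D : Finset (Sym2 V)) (h : Sym2 V → ℝ) (f : V → I) : ℝ :=
  ∑ e' ∈ D, Real.exp (h e') * sq f e'

lemma energy_nonneg (D : Finset (Sym2 V)) (h : Sym2 V → ℝ) (f : V → I) : 0 ≤ energy D h f :=
  sum_nonneg fun e _ => mul_nonneg (Real.exp_pos _).le (sq_nonneg' f e)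

lemma energy_mono {D D' : Finset (Sym2 V)} (hD : D ⊆ D') (h : Sym2 V → ℝ) (f : V → I) :
    energy D h f ≤ energy D' h f :=
  sum_le_sum_of_subset_of_nonneg hD fun e _ _ => mul_nonneg (Real.exp_pos _).le (sq_nonneg' f e)

lemma continuous_energy (D : Finset (Sym2 V)) (h : Sym2 V → ℝ) :
    Continuous fun f : V → I => energy D h f := by
  unfold energy
  exact continuous_finsetSum _ fun e _ => continuous_const.mul (continuous_sq e)

/-- effective conductance -/
noncomputable def cond (D : Finset (Sym2 V)) (h : Sym2 V → ℝ) (e : Sym2 V) : ℝ :=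
  ⨅ f : {f : V → I // sq f e = 1}, energy D h f.1

lemma nonempty_pot {e : Sym2 V} (he : ¬ e.IsDiag) : Nonempty {f : V → I // sq f e = 1} := by
  classical
  induction e using Sym2.ind with
  | _ x y =>
    have hxy : x ≠ y := by simpa using he
    refine ⟨⟨fun z => if z = x then 1 else 0, ?_⟩⟩
    simp [hxy.symm]

lemma cond_le (D : Finset (Sym2 V)) (h : Sym2 V → ℝ) {e : Sym2 V} {f : V → I}
    (hf : sq f e = 1) : cond D h e ≤ energy D h f :=
  ciInf_le (f := fun f : {f : V → I // sq f e = 1} => energy D h f.1)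
    ⟨0, by rintro _ ⟨f, rfl⟩; exact energy_nonneg _ _ _⟩ ⟨f, hf⟩

lemma le_cond {D : Finset (Sym2 V)} {h : Sym2 V → ℝ} {e : Sym2 V} (he : ¬ e.IsDiag) {c : ℝ}
    (hc : ∀ f : V → I, sq f e = 1 → c ≤ energy D h f) : c ≤ cond D h e := by
  have := nonempty_pot he
  exact le_ciInf fun f => hc f.1 f.2

lemma exp_le_energy {D : Finset (Sym2 V)} (h : Sym2 V → ℝ) {e : Sym2 V} (heD : e ∈ D)
    {f : V → I} (hf : sq f e = 1) : Real.exp (h e) ≤ energy D h f := by
  have := single_le_sum (f := fun e' => Real.exp (h e') * sq f e')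
    (fun e _ => mul_nonneg (Real.exp_pos _).le (sq_nonneg' f e)) heD
  simpa [hf, energy] using this

lemma exp_le_cond {D : Finset (Sym2 V)} (h : Sym2 V → ℝ) {e : Sym2 V} (he : ¬ e.IsDiag)
    (heD : e ∈ D) : Real.exp (h e) ≤ cond D h e :=
  le_cond he fun _ hf => exp_le_energy h heD hf

lemma cond_pos {D : Finset (Sym2 V)} (h : Sym2 V → ℝ) {e : Sym2 V} (he : ¬ e.IsDiag)
    (heD : e ∈ D) : 0 < cond D h e :=
  (Real.exp_pos _).trans_le (exp_le_cond h he heD)

lemma cond_mono {D D' : Finset (Sym2 V)} (hD : D ⊆ D') (h : Sym2 V → ℝ) {e : Sym2 V}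
    (he : ¬ e.IsDiag) : cond D h e ≤ cond D' h e :=
  le_cond he fun f hf => (cond_le D h hf).trans (energy_mono hD h f)

lemma cond_le_exp_mul {D : Finset (Sym2 V)} {h h' : Sym2 V → ℝ} {η : ℝ}
    (hh : ∀ e' ∈ D, |h e' - h' e'| ≤ η) {e : Sym2 V} (he : ¬ e.IsDiag) :
    cond D h e ≤ Real.exp η * cond D h' e := by
  rw [← div_le_iff₀' (Real.exp_pos _)]
  refine le_cond he fun f hf => ?_
  rw [div_le_iff₀' (Real.exp_pos _)]
  refine (cond_le D h hf).trans ?_
  unfold energy
  rw [mul_sum]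
  refine sum_le_sum fun e' he' => ?_
  rw [← mul_assoc, ← Real.exp_add]
  refine mul_le_mul_of_nonneg_right (Real.exp_le_exp.2 ?_) (sq_nonneg' _ _)
  have := (abs_le.1 (hh e' he')).2
  linarith

/-- finite-volume marginal -/
noncomputable def margD (D : Finset (Sym2 V)) (h : Sym2 V → ℝ) (e : Sym2 V) : ℝ :=
  Real.exp (h e) / cond D h e

lemma margD_pos {D : Finset (Sym2 V)} (h : Sym2 V → ℝ) {e : Sym2 V} (he : ¬ e.IsDiag)
    (heD : e ∈ D) : 0 < margD D h e :=
  div_pos (Real.exp_pos _) (cond_pos h he heD)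

lemma margD_le_one {D : Finset (Sym2 V)} (h : Sym2 V → ℝ) {e : Sym2 V} (he : ¬ e.IsDiag)
    (heD : e ∈ D) : margD D h e ≤ 1 :=
  (div_le_one (cond_pos h he heD)).2 (exp_le_cond h he heD)

lemma margD_anti {D D' : Finset (Sym2 V)} (hD : D ⊆ D') (h : Sym2 V → ℝ) {e : Sym2 V}
    (he : ¬ e.IsDiag) (heD : e ∈ D) : margD D' h e ≤ margD D h e :=
  div_le_div_of_nonneg_left (Real.exp_pos _).le (cond_pos h he heD) (cond_mono hD h he)

lemma margD_le_add {D : Finset (Sym2 V)} {h h' : Sym2 V → ℝ} {η : ℝ}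
    (hh : ∀ e' ∈ D, |h e' - h' e'| ≤ η) {e : Sym2 V} (he : ¬ e.IsDiag) (heD : e ∈ D) :
    margD D h e ≤ margD D h' e + 2 * η := by
  have h1 : cond D h' e ≤ Real.exp η * cond D h e :=
    cond_le_exp_mul (fun e' he' => by rw [abs_sub_comm]; exact hh e' he') he
  have hc := cond_pos h he heD
  have hc' := cond_pos h' he heD
  have h2 : Real.exp (h e) ≤ Real.exp η * Real.exp (h' e) := by
    rw [← Real.exp_add]
    have := (abs_le.1 (hh e heD)).2
    exact Real.exp_le_exp.2 (by linarith)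
  have h3 : Real.exp (-(2 * η)) * margD D h e ≤ margD D h' e := by
    unfold margD
    rw [← mul_div_assoc, div_le_div_iff₀ hc hc']
    have e1 : Real.exp (-(2 * η)) * (Real.exp η * Real.exp η) = 1 := by
      rw [← Real.exp_add, ← Real.exp_add]; simp; ring
    calc Real.exp (-(2 * η)) * Real.exp (h e) * cond D h' e
        ≤ Real.exp (-(2 * η)) * (Real.exp η * Real.exp (h' e)) * (Real.exp η * cond D h e) := by
          gcongr
      _ = (Real.exp (-(2 * η)) * (Real.exp η * Real.exp η)) * (Real.exp (h' e) * cond D h e) := by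
          ring
      _ = _ := by rw [e1, one_mul]
  have h4 : 1 - 2 * η ≤ Real.exp (-(2 * η)) := by
    have := Real.add_one_le_exp (-(2 * η)); linarith
  have h5 := margD_le_one h he heD
  have h6 := margD_pos h he heD
  have hη : 0 ≤ η := (abs_nonneg _).trans (hh e heD)
  nlinarith [mul_le_mul_of_nonneg_right h4 h6.le]

lemma continuous_margD (D : Finset (Sym2 V)) {e : Sym2 V} (he : ¬ e.IsDiag) (heD : e ∈ D) :
    Continuous fun h : Sym2 V → ℝ => margD D h e := by
  refine continuous_iff_continuousAt.2 fun h0 => ?_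
  have hc : Continuous fun h : Sym2 V → ℝ => 2 * ∑ e' ∈ D, |h e' - h0 e'| := by fun_prop
  have ht : Tendsto (fun h : Sym2 V → ℝ => 2 * ∑ e' ∈ D, |h e' - h0 e'|) (𝓝 h0) (𝓝 0) := by
    simpa using hc.tendsto h0
  rw [ContinuousAt, tendsto_iff_dist_tendsto_zero]
  refine squeeze_zero (fun _ => dist_nonneg) (fun h => ?_) ht
  have hb : ∀ e' ∈ D, |h e' - h0 e'| ≤ ∑ e' ∈ D, |h e' - h0 e'| := fun e' he' =>
    single_le_sum (f := fun e' => |h e' - h0 e'|) (fun _ _ => abs_nonneg _) he'
  have a1 := margD_le_add hb he heD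
  have a2 := margD_le_add (h := h0) (h' := h)
    (fun e' he' => by rw [abs_sub_comm]; exact hb e' he') he heD
  rw [Real.dist_eq, abs_le]
  constructor <;> linarith

open Classical in
/-- one term of the infimum defining `marg` -/
noncomputable def margT (G : SimpleGraph V) (h : Sym2 V → ℝ) (e : Sym2 V)
    (D : Finset (Sym2 V)) : ℝ :=
  if (↑D : Set (Sym2 V)) ⊆ G.edgeSet ∧ e ∈ D then margD D h e else 1

open Classical in
/-- the infinite-volume free marginal -/
noncomputable def marg (G : SimpleGraph V) (h : Sym2 V → ℝ) (e : Sym2 V) : ℝ :=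
  if e ∈ G.edgeSet then ⨅ D : Finset (Sym2 V), margT G h e D else 0

lemma margT_nonneg (G : SimpleGraph V) (h : Sym2 V → ℝ) (e : Sym2 V) (D : Finset (Sym2 V)) :
    0 ≤ margT G h e D := by
  unfold margT
  split_ifs with hD
  · exact (margD_pos h (G.not_isDiag_of_mem_edgeSet (hD.1 hD.2)) hD.2).le
  · exact zero_le_one

lemma margT_bdd (G : SimpleGraph V) (h : Sym2 V → ℝ) (e : Sym2 V) :
    BddBelow (Set.range (margT G h e)) :=
  ⟨0, by rintro _ ⟨D, rfl⟩; exact margT_nonneg _ _ _ _⟩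

lemma marg_nonneg (G : SimpleGraph V) (h : Sym2 V → ℝ) (e : Sym2 V) : 0 ≤ marg G h e := by
  unfold marg
  split_ifs
  · exact le_ciInf fun D => margT_nonneg _ _ _ _
  · exact le_rfl

lemma marg_le_margT {G : SimpleGraph V} (h : Sym2 V → ℝ) {e : Sym2 V} (he : e ∈ G.edgeSet)
    (D : Finset (Sym2 V)) : marg G h e ≤ margT G h e D := by
  unfold marg
  rw [if_pos he]
  exact ciInf_le (margT_bdd G h e) D

lemma marg_le_margD {G : SimpleGraph V} (h : Sym2 V → ℝ) {e : Sym2 V} {D : Finset (Sym2 V)}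
    (hD : (↑D : Set (Sym2 V)) ⊆ G.edgeSet) (heD : e ∈ D) : marg G h e ≤ margD D h e := by
  have := marg_le_margT h (hD heD) D
  rwa [margT, if_pos ⟨hD, heD⟩] at this

lemma le_marg {G : SimpleGraph V} {h : Sym2 V → ℝ} {e : Sym2 V} (he : e ∈ G.edgeSet) {c : ℝ}
    (hc1 : c ≤ 1)
    (hc : ∀ D : Finset (Sym2 V), (↑D : Set (Sym2 V)) ⊆ G.edgeSet → e ∈ D → c ≤ margD D h e) :
    c ≤ marg G h e := by
  unfold marg
  rw [if_pos he]
  refine le_ciInf fun D => ?_
  unfold margT
  split_ifs with hD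
  · exact hc D hD.1 hD.2
  · exact hc1

lemma marg_of_not_mem {G : SimpleGraph V} (h : Sym2 V → ℝ) {e : Sym2 V} (he : e ∉ G.edgeSet) :
    marg G h e = 0 := by
  unfold marg; rw [if_neg he]

lemma marg_le_one (G : SimpleGraph V) (h : Sym2 V → ℝ) (e : Sym2 V) : marg G h e ≤ 1 := by
  by_cases he : e ∈ G.edgeSet
  · have := marg_le_margT h he ∅
    simpa [margT] using this
  · rw [marg_of_not_mem h he]; exact zero_le_one

lemma marg_le_add (G : SimpleGraph V) {h h' : Sym2 V → ℝ} {η : ℝ} (hη : 0 ≤ η)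
    (hh : ∀ e' ∈ G.edgeSet, |h e' - h' e'| ≤ η) (e : Sym2 V) :
    marg G h e ≤ marg G h' e + 2 * η := by
  by_cases he : e ∈ G.edgeSet
  · rw [← sub_le_iff_le_add]
    refine le_marg he (by linarith [marg_le_one G h e]) fun D hD heD => ?_
    have := margD_le_add (fun e' he' => hh e' (hD he')) (G.not_isDiag_of_mem_edgeSet he) heD
    linarith [marg_le_margD h hD heD]
  · rw [marg_of_not_mem h he, marg_of_not_mem h' he]; linarith

lemma abs_marg_sub_le (G : SimpleGraph V) {h h' : Sym2 V → ℝ} {η : ℝ} (hη : 0 ≤ η)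
    (hh : ∀ e' ∈ G.edgeSet, |h e' - h' e'| ≤ η) (e : Sym2 V) :
    |marg G h e - marg G h' e| ≤ 2 * η := by
  have a1 := marg_le_add G hη hh e
  have a2 := marg_le_add G (h := h') (h' := h) hη
    (fun e' he' => by rw [abs_sub_comm]; exact hh e' he') e
  rw [abs_le]; constructor <;> linarith

lemma marg_congr (G : SimpleGraph V) {h h' : Sym2 V → ℝ}
    (hh : ∀ e' ∈ G.edgeSet, h e' = h' e') (e : Sym2 V) : marg G h e = marg G h' e := by
  have := abs_marg_sub_le G (h := h) (h' := h') le_rfl (fun e' he' => by simp [hh e' he']) e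
  have h2 : |marg G h e - marg G h' e| = 0 := le_antisymm (by simpa using this) (abs_nonneg _)
  exact sub_eq_zero.1 (abs_eq_zero.1 h2)

lemma marg_eq_margD {G : SimpleGraph V} (h : Sym2 V → ℝ) {D : Finset (Sym2 V)}
    (hD : (↑D : Set (Sym2 V)) = G.edgeSet) {e : Sym2 V} (heD : e ∈ D) :
    marg G h e = margD D h e := by
  have he : e ∈ G.edgeSet := hD ▸ heD
  have hd := G.not_isDiag_of_mem_edgeSet he
  refine le_antisymm (marg_le_margD h hD.le heD) (le_marg he (margD_le_one h hd heD) ?_)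
  intro D' hD' heD'
  exact margD_anti (by rw [← hD] at hD'; exact_mod_cast hD') h hd heD'

lemma measurable_marg [Countable V] (e : Sym2 V) :
    Measurable fun p : SimpleGraph V × (Sym2 V → ℝ) => marg p.1 p.2 e := by
  classical
  have hm : ∀ e : Sym2 V, MeasurableSet {p : SimpleGraph V × (Sym2 V → ℝ) | e ∈ p.1.edgeSet} := by
    intro e
    have : Measurable fun p : SimpleGraph V × (Sym2 V → ℝ) => e ∈ p.1.edgeSet :=
      (measurable_set_mem e).comp (SimpleGraph.measurable_edgeSet.comp measurable_fst)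
    exact measurableSet_setOfPred.2 this
  unfold marg
  refine Measurable.ite (hm e) (Measurable.iInf fun D => ?_) measurable_const
  unfold margT
  by_cases hd : ¬ e.IsDiag ∧ e ∈ D
  · refine Measurable.ite ?_ ((continuous_margD D hd.1 hd.2).measurable.comp measurable_snd)
      measurable_const
    have : {p : SimpleGraph V × (Sym2 V → ℝ) | (↑D : Set (Sym2 V)) ⊆ p.1.edgeSet ∧ e ∈ D}
        = ⋂ e' ∈ D, {p : SimpleGraph V × (Sym2 V → ℝ) | e' ∈ p.1.edgeSet} := by
      ext p
      simp [Set.subset_def, hd.2]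
    rw [this]
    exact D.measurableSet_biInter fun e' _ => hm e'
  · have : ∀ p : SimpleGraph V × (Sym2 V → ℝ),
        ¬ ((↑D : Set (Sym2 V)) ⊆ p.1.edgeSet ∧ e ∈ D) := fun p hp =>
      hd ⟨p.1.not_isDiag_of_mem_edgeSet (hp.1 hp.2), hp.2⟩
    simp only [this, if_false]
    exact measurable_const

/-! ### equivariance -/

lemma sq_map {W : Type*} (φ : V → W) (f : W → I) (e : Sym2 V) :
    sq f (e.map φ) = sq (f ∘ φ) e := by
  induction e using Sym2.ind with
  | _ x y => simp

lemma cond_map_le {W : Type*} (φ : V ≃ W) (D : Finset (Sym2 V)) (D' : Finset (Sym2 W))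
    (hD : ∀ e, e.map φ ∈ D' ↔ e ∈ D) (h : Sym2 V → ℝ) (h' : Sym2 W → ℝ)
    (hh : ∀ e, h' (e.map φ) = h e) {e : Sym2 V} (he : ¬ e.IsDiag) :
    cond D' h' (e.map φ) ≤ cond D h e := by
  refine le_cond he fun f hf => ?_
  have h1 : sq (f ∘ φ.symm) (e.map φ) = 1 := by
    rw [sq_map]; simpa [Function.comp_def] using hf
  refine (cond_le D' h' h1).trans (le_of_eq ?_)
  unfold energy
  symm
  refine Finset.sum_nbij' (fun e => e.map φ) (fun e => e.map φ.symm) ?_ ?_ ?_ ?_ ?_
  · intro a ha; exact (hD a).2 ha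
  · intro a ha
    refine (hD _).1 ?_
    simpa [Sym2.map_map] using ha
  · intro a _; simp [Sym2.map_map]
  · intro a _; simp [Sym2.map_map]
  · intro a _
    rw [hh, sq_map]; simp [Function.comp_def]

lemma marg_le_map {W : Type*} {G : SimpleGraph V} {G' : SimpleGraph W} (φ : G ≃g G')
    (h : Sym2 V → ℝ) (h' : Sym2 W → ℝ) (hh : ∀ e, h' (e.map φ) = h e) (e : Sym2 V) :
    marg G' h' (e.map φ) ≤ marg G h e := by
  classical
  have hE : ∀ e : Sym2 V, e.map φ ∈ G'.edgeSet ↔ e ∈ G.edgeSet := fun e => φ.map_mem_edgeSet_iff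
  by_cases he : e ∈ G.edgeSet
  · refine le_marg he (marg_le_one _ _ _) fun D hD heD => ?_
    have hd := G.not_isDiag_of_mem_edgeSet he
    have hd' := G'.not_isDiag_of_mem_edgeSet ((hE e).2 he)
    let D' : Finset (Sym2 W) := D.image (Sym2.map φ)
    have hDD : ∀ e' : Sym2 W, e'.map φ.symm ∈ D ↔ e' ∈ D' := by
      intro e'
      simp only [D', Finset.mem_image]
      constructor
      · intro h1; exact ⟨_, h1, by simp [Sym2.map_map]⟩
      · rintro ⟨a, ha, rfl⟩; simpa [Sym2.map_map] using ha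
    have heD' : e.map φ ∈ D' := Finset.mem_image_of_mem _ heD
    have h1 : marg G' h' (e.map φ) ≤ margD D' h' (e.map φ) := by
      refine marg_le_margD h' ?_ heD'
      intro e' he'
      obtain ⟨a, ha, rfl⟩ := Finset.mem_image.1 he'
      exact (hE a).2 (hD ha)
    refine h1.trans ?_
    have h2 := cond_map_le φ.symm.toEquiv D' D hDD h' h
      (fun e' => by rw [← hh]; simp [Sym2.map_map]) hd'
    have h3 : Sym2.map (⇑φ.symm.toEquiv) (Sym2.map (⇑φ) e) = e := by simp [Sym2.map_map]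
    rw [h3] at h2
    unfold margD
    rw [hh]
    exact div_le_div_of_nonneg_left (Real.exp_pos _).le (cond_pos h hd heD) h2
  · rw [marg_of_not_mem h he, marg_of_not_mem h' (mt (hE e).1 he)]

lemma marg_map {W : Type*} {G : SimpleGraph V} {G' : SimpleGraph W} (φ : G ≃g G')
    (h : Sym2 V → ℝ) (h' : Sym2 W → ℝ) (hh : ∀ e, h' (e.map φ) = h e) (e : Sym2 V) :
    marg G' h' (e.map φ) = marg G h e := by
  refine le_antisymm (marg_le_map φ h h' hh e) ?_
  have := marg_le_map φ.symm h' h (fun e' => by rw [← hh]; simp [Sym2.map_map]) (e.map φ)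
  simpa [Sym2.map_map] using this

end Vale.Agent.P143
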