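import Mathlib

namespace Vale.Agent.P143

open MeasureTheory ProbabilityTheory Filter Topology

variable {V : Type*}

/-- An exhaustion of `G` by an increasing sequence of finite connected subgraphs. -/
structure IsExhaustion (G : SimpleGraph V) (H : ℕ → G.Subgraph) : Prop where
  finite : ∀ n, (H n).verts.Finite
  connected : ∀ n, (H n).Connected
  mono : Monotone H
  union : ⨆ n, H n = ⊤

/-- The spanning trees of the subgraph `H`, as configurations in `{0,1}^E(G)`. -/
def spanningTrees {G : SimpleGraph V} (H : G.Subgraph) : Set (G.edgeSet → Bool) :=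
  {ω | ∃ T : G.Subgraph, T ≤ H ∧ T.verts = H.verts ∧ T.coe.IsTree ∧
    ∀ e : G.edgeSet, ω e = true ↔ e.1 ∈ T.edgeSet}

/-- `μ` is the free uniform spanning forest of `G`: the weak limit of the uniform spanning trees
along every exhaustion (and there is one). -/
def IsFUSF (G : SimpleGraph V) (μ : Measure (G.edgeSet → Bool)) : Prop :=
  IsProbabilityMeasure μ ∧ (∃ H, IsExhaustion G H) ∧
    ∀ H, IsExhaustion G H → ∀ f : C(G.edgeSet → Bool, ℝ),
      Tendsto (fun n => ∫ ω, f ω ∂(uniformOn (spanningTrees (H n)))) atTop (𝓝 (∫ ω, f ω ∂μ))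

end Vale.Agent.P143
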