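import Vale.Agent.P143.Limit

/-! The Euler scheme for the posterior-mean vector field. -/

namespace Vale.Agent.P143

open Filter Topology Finset

variable {V : Type*}

/-- log-likelihood ratio of the Laplace noise -/
def ell (t x : ℝ) : ℝ := |x| - |x - t|

lemma abs_ell_le (t x : ℝ) : |ell t x| ≤ |t| := by
  have := abs_abs_sub_abs_le_abs_sub x (x - t)
  simpa [ell] using this

lemma ell_lip (t t' x x' : ℝ) : |ell t x - ell t' x'| ≤ 2 * |x - x'| + |t - t'| := by
  have h1 := abs_abs_sub_abs_le_abs_sub x x'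
  have h2 := abs_abs_sub_abs_le_abs_sub (x' - t') (x - t)
  have h3 : |x' - t' - (x - t)| ≤ |x - x'| + |t - t'| := by
    have := abs_add_le (x' - x) (t - t')
    rw [abs_sub_comm x' x] at this
    calc _ = |x' - x + (t - t')| := by congr 1; ring
      _ ≤ _ := this
  have h4 := abs_add_le (|x| - |x'|) (|x' - t'| - |x - t|)
  calc _ = |(|x| - |x'|) + (|x' - t'| - |x - t|)| := by unfold ell; congr 1; ring
    _ ≤ _ := by linarith

lemma continuous_ell (t : ℝ) : Continuous (ell t) := by unfold ell; fun_prop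

/-- velocity field -/
noncomputable def vel (G : SimpleGraph V) (t : ℝ) (x : Sym2 V → ℝ) (e : Sym2 V) : ℝ :=
  marg G (fun e' => ell t (x e')) e

lemma vel_lip (G : SimpleGraph V) {x y : Sym2 V → ℝ} {d : ℝ} (hd : 0 ≤ d)
    (hxy : ∀ e ∈ G.edgeSet, |x e - y e| ≤ d) (t t' : ℝ) (e : Sym2 V) :
    |vel G t x e - vel G t' y e| ≤ 4 * d + 2 * |t - t'| := by
  have := abs_marg_sub_le G (h := fun e' => ell t (x e')) (h' := fun e' => ell t' (y e'))
    (η := 2 * d + |t - t'|) (by positivity)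
    (fun e' he' => (ell_lip _ _ _ _).trans (by linarith [hxy e' he'])) e
  unfold vel; linarith

/-- Euler scheme -/
noncomputable def eul (G : SimpleGraph V) (δ : ℝ) (ξ : Sym2 V → ℝ) : ℕ → Sym2 V → ℝ
  | 0 => ξ
  | j + 1 => fun e => eul G δ ξ j e + δ * vel G (j * δ) (eul G δ ξ j) e

lemma eul_succ (G : SimpleGraph V) (δ : ℝ) (ξ : Sym2 V → ℝ) (j : ℕ) (e : Sym2 V) :
    eul G δ ξ (j + 1) e = eul G δ ξ j e + δ * vel G (j * δ) (eul G δ ξ j) e := rfl

lemma eul_add (G : SimpleGraph V) {δ : ℝ} (hδ : 0 ≤ δ) (ξ : Sym2 V → ℝ) (j i : ℕ) (e : Sym2 V) :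
    eul G δ ξ j e ≤ eul G δ ξ (j + i) e ∧ eul G δ ξ (j + i) e ≤ eul G δ ξ j e + i * δ := by
  induction i with
  | zero => simp
  | succ i ih =>
    rw [← add_assoc, eul_succ]
    have h0 : 0 ≤ vel G ((j + i : ℕ) * δ) (eul G δ ξ (j + i)) e := marg_nonneg _ _ _
    have h1 : vel G ((j + i : ℕ) * δ) (eul G δ ξ (j + i)) e ≤ 1 := marg_le_one _ _ _
    have h2 := mul_nonneg hδ h0
    have h3 := mul_le_mul_of_nonneg_left h1 hδ
    push_cast at *
    constructor <;> linarith [ih.1, ih.2]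

lemma eul_block (G : SimpleGraph V) {η : ℝ} (hη : 0 ≤ η) (ξ : Sym2 V → ℝ) (j M : ℕ)
    (e : Sym2 V) {i : ℕ} (hi : i ≤ M) :
    |eul G η ξ (j + i) e - eul G η ξ j e - i * η * vel G (j * η) (eul G η ξ j) e|
      ≤ i * η * (6 * (M * η)) := by
  induction i with
  | zero => simp
  | succ i ih =>
    have ih := ih (by omega)
    have hiM : (i : ℝ) * η ≤ M * η :=
      mul_le_mul_of_nonneg_right (by exact_mod_cast (by omega : i ≤ M)) hη
    have h1 := vel_lip G (x := eul G η ξ (j + i)) (y := eul G η ξ j) (d := M * η)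
      (by positivity) (fun e' _ => by
        have := eul_add G hη ξ j i e'
        rw [abs_le]; constructor <;> linarith [this.1, this.2, mul_nonneg (Nat.cast_nonneg i) hη])
      ((j + i : ℕ) * η) (j * η) e
    have h2 : |((j + i : ℕ) : ℝ) * η - j * η| = i * η := by
      rw [abs_of_nonneg] <;> push_cast
      · ring
      · nlinarith [mul_nonneg (Nat.cast_nonneg (α := ℝ) i) hη]
    rw [h2] at h1
    rw [← add_assoc, eul_succ]
    have h3 : |η * (vel G ((j + i : ℕ) * η) (eul G η ξ (j + i)) e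
        - vel G (j * η) (eul G η ξ j) e)| ≤ η * (6 * (M * η)) := by
      rw [abs_mul, abs_of_nonneg hη]
      exact mul_le_mul_of_nonneg_left (by linarith) hη
    refine le_trans (le_of_eq ?_) ((abs_add_le _ _).trans ((add_le_add ih h3).trans (le_of_eq ?_)))
    · congr 1; push_cast; ring
    · push_cast; ring

lemma eul_fine (G : SimpleGraph V) {η : ℝ} (hη : 0 ≤ η) (ξ : Sym2 V → ℝ) (M j : ℕ)
    (e : Sym2 V) :
    |eul G η ξ (j * M) e - eul G (M * η) ξ j e| ≤ 2 * (M * η) * ((1 + 4 * (M * η)) ^ j - 1) := by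
  induction j generalizing e with
  | zero => simp [eul]
  | succ j ih =>
    have hδ : 0 ≤ M * η := by positivity
    have hp : 1 ≤ (1 + 4 * (M * η)) ^ j := one_le_pow₀ (by linarith)
    have h1 := eul_block G hη ξ (j * M) M e le_rfl
    have h2 := vel_lip G (x := eul G η ξ (j * M)) (y := eul G (M * η) ξ j)
      (d := 2 * (M * η) * ((1 + 4 * (M * η)) ^ j - 1)) (by nlinarith) (fun e' _ => ih e')
      ((j * M : ℕ) * η) (j * (M * η)) e
    have h3 : ((j * M : ℕ) : ℝ) * η - j * (M * η) = 0 := by push_cast; ring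
    rw [h3, abs_zero, mul_zero, add_zero] at h2
    have h4 : |M * η * (vel G ((j * M : ℕ) * η) (eul G η ξ (j * M)) e
        - vel G (j * (M * η)) (eul G (M * η) ξ j) e)|
        ≤ M * η * (4 * (2 * (M * η) * ((1 + 4 * (M * η)) ^ j - 1))) := by
      rw [abs_mul, abs_of_nonneg hδ]
      exact mul_le_mul_of_nonneg_left h2 hδ
    rw [eul_succ, add_mul, one_mul]
    have h5 := (abs_add_three _ _ _).trans (add_le_add (add_le_add h1 (ih e)) h4)
    refine le_trans (le_of_eq ?_) (h5.trans ?_)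
    · congr 1; ring
    · rw [pow_succ]
      nlinarith [mul_nonneg hδ hδ]

/-- level-`k` scheme at integer time `T` -/
noncomputable def X (G : SimpleGraph V) (ξ : Sym2 V → ℝ) (k T : ℕ) : Sym2 V → ℝ :=
  eul G (1 / 2 ^ k) ξ (T * 2 ^ k)

lemma X_mono (G : SimpleGraph V) (ξ : Sym2 V → ℝ) (k : ℕ) {T T' : ℕ} (h : T ≤ T') (e : Sym2 V) :
    X G ξ k T e ≤ X G ξ k T' e ∧ T - X G ξ k T e ≤ T' - X G ξ k T' e := by
  obtain ⟨i, rfl⟩ := Nat.exists_eq_add_of_le h
  have := eul_add G (δ := 1 / 2 ^ k) (by positivity) ξ (T * 2 ^ k) (i * 2 ^ k) e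
  unfold X
  rw [add_mul]
  have h2 : ((i * 2 ^ k : ℕ) : ℝ) * (1 / 2 ^ k) = i := by push_cast; field_simp
  rw [h2] at this
  push_cast
  constructor <;> linarith [this.1, this.2]

lemma X_cauchy (T : ℕ) : ∃ k0 : ℕ, ∀ k, k0 ≤ k → ∀ (G : SimpleGraph V) (ξ : Sym2 V → ℝ)
    (e : Sym2 V), |X G ξ k T e - X G ξ k0 T e| ≤ 1 := by
  obtain ⟨k0, hk0⟩ := pow_unbounded_of_one_lt (2 * Real.exp (4 * T)) (one_lt_two (α := ℝ))
  refine ⟨k0, fun k hk G ξ e => ?_⟩
  obtain ⟨i, rfl⟩ := Nat.exists_eq_add_of_le hk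
  have h1 := eul_fine G (η := 1 / 2 ^ (k0 + i)) (by positivity) ξ (2 ^ i) (T * 2 ^ k0) e
  have h2 : ((2 ^ i : ℕ) : ℝ) * (1 / 2 ^ (k0 + i)) = 1 / 2 ^ k0 := by
    push_cast; rw [pow_add]; field_simp
  rw [h2, mul_assoc, ← pow_add] at h1
  refine h1.trans ?_
  have h3 : (1 + 4 * (1 / 2 ^ k0 : ℝ)) ^ (T * 2 ^ k0) ≤ Real.exp (4 * T) := by
    calc _ ≤ (Real.exp (4 * (1 / 2 ^ k0 : ℝ))) ^ (T * 2 ^ k0) := by
          gcongr
          linarith [Real.add_one_le_exp (4 * (1 / 2 ^ k0 : ℝ))]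
      _ = _ := by
          rw [← Real.exp_nat_mul]; congr 1; push_cast; field_simp
  have h4 : (0 : ℝ) < 2 ^ k0 := by positivity
  calc _ ≤ 2 * (1 / 2 ^ k0 * Real.exp (4 * T)) := by
        rw [mul_assoc]; gcongr; linarith
    _ = 2 * Real.exp (4 * T) / 2 ^ k0 := by ring
    _ ≤ 1 := (div_le_one h4).2 hk0.le

lemma measurable_eul [Countable V] (δ : ℝ) (j : ℕ) :
    Measurable fun p : SimpleGraph V × (Sym2 V → ℝ) => eul p.1 δ p.2 j := by
  induction j with
  | zero => exact measurable_snd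
  | succ j ih =>
    refine measurable_pi_lambda _ fun e => ?_
    simp only [eul_succ]
    refine ((measurable_pi_apply e).comp ih).add (Measurable.const_mul ?_ _)
    refine (measurable_marg e).comp (f := fun p : SimpleGraph V × (Sym2 V → ℝ) =>
      (p.1, fun e' => ell (j * δ) (eul p.1 δ p.2 j e'))) (measurable_fst.prodMk ?_)
    exact measurable_pi_lambda _ fun e' =>
      (continuous_ell _).measurable.comp ((measurable_pi_apply e').comp ih)

lemma eul_map {W : Type*} {G : SimpleGraph V} {G' : SimpleGraph W} (φ : G ≃g G') (δ : ℝ)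
    (ξ : Sym2 V → ℝ) (ξ' : Sym2 W → ℝ) (hξ : ∀ e, ξ' (e.map φ) = ξ e) (j : ℕ) (e : Sym2 V) :
    eul G' δ ξ' j (e.map φ) = eul G δ ξ j e := by
  induction j generalizing e with
  | zero => exact hξ e
  | succ j ih =>
    simp only [eul_succ, ih, vel]
    rw [marg_map φ (fun e' => ell (j * δ) (eul G δ ξ j e')) _ (fun e' => by rw [ih])]

lemma eul_congr (G : SimpleGraph V) (δ : ℝ) {ξ ξ' : Sym2 V → ℝ}
    (hξ : ∀ e ∈ G.edgeSet, ξ e = ξ' e) (j : ℕ) :
    ∀ e ∈ G.edgeSet, eul G δ ξ j e = eul G δ ξ' j e := by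
  induction j with
  | zero => exact hξ
  | succ j ih =>
    intro e he
    simp only [eul_succ, ih e he, vel]
    rw [marg_congr G (h' := fun e' => ell (j * δ) (eul G δ ξ' j e'))
      (fun e' he' => by rw [ih e' he'])]

lemma tendsto_eul {G : SimpleGraph V} {H : ℕ → SimpleGraph V} (hHG : ∀ n, H n ≤ G)
    (hev : ∀ e ∈ G.edgeSet, ∀ᶠ n in atTop, e ∈ (H n).edgeSet) (δ : ℝ) (ξ : Sym2 V → ℝ) (j : ℕ)
    (e : Sym2 V) : Tendsto (fun n => eul (H n) δ ξ j e) atTop (𝓝 (eul G δ ξ j e)) := by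
  induction j generalizing e with
  | zero => exact tendsto_const_nhds
  | succ j ih =>
    simp only [eul_succ, vel]
    refine (ih e).add (Tendsto.const_mul _ ?_)
    exact tendsto_marg hHG hev (B := |j * δ|) (fun _ _ => abs_ell_le _ _)
      (fun _ => abs_ell_le _ _) (fun e' => ((continuous_ell _).tendsto _).comp (ih e')) e

end Vale.Agent.P143
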