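import Mathlib

/-! Finite-dimensional comparison of the Euler scheme with the law of noise plus signal. -/

namespace Vale.Agent.P143

open MeasureTheory Filter Topology Finset

/-- Laplace density -/
noncomputable def phi (y : ℝ) : ℝ := Real.exp (-|y|) / 2

lemma phi_pos (y : ℝ) : 0 < phi y := by unfold phi; positivity

lemma continuous_phi : Continuous phi := by unfold phi; fun_prop

lemma integral_phi : ∫ y, phi y = 1 := by
  unfold phi
  rw [integral_div, integral_comp_abs (f := fun x => Real.exp (-x)), integral_exp_neg_Ioi_zero]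
  norm_num

lemma integrable_phi : Integrable phi :=
  Integrable.of_integral_ne_zero (by rw [integral_phi]; exact one_ne_zero)

/-- Laplace law -/
noncomputable def lap : Measure ℝ := volume.withDensity fun y => ENNReal.ofReal (phi y)

lemma lap_apply {s : Set ℝ} (hs : MeasurableSet s) :
    lap s = ENNReal.ofReal (∫ y, s.indicator phi y) := by
  rw [lap, withDensity_apply _ hs, integral_indicator hs,
    ofReal_integral_eq_lintegral_ofReal integrable_phi.integrableOn
      (ae_of_all _ fun y => (phi_pos y).le)]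

instance : IsProbabilityMeasure lap :=
  ⟨by rw [lap_apply MeasurableSet.univ, Set.indicator_univ, integral_phi]; simp⟩

instance : NullSingletonClass lap := by unfold lap; infer_instance

variable {ι : Type*} [Fintype ι]

lemma integrable_prod_phi (c : ι → ℝ) : Integrable fun x : ι → ℝ => ∏ i, phi (x i - c i) :=
  Integrable.fintype_prod (f := fun i y => phi (y - c i)) fun i =>
    integrable_phi.comp_sub_right (c i)

lemma pi_lap : Measure.pi (fun _ : ι => lap)
    = volume.withDensity fun x : ι → ℝ => ENNReal.ofReal (∏ i, phi (x i)) := by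
  refine Measure.pi_eq fun s hs => ?_
  have hm : MeasurableSet (Set.univ.pi s) := MeasurableSet.univ_pi hs
  have hi : Integrable fun x : ι → ℝ => ∏ i, phi (x i) := by
    simpa using integrable_prod_phi (0 : ι → ℝ)
  rw [withDensity_apply _ hm, ← ofReal_integral_eq_lintegral_ofReal hi.integrableOn
    (ae_of_all _ fun x => prod_nonneg fun i _ => (phi_pos _).le), ← integral_indicator hm]
  have : (Set.univ.pi s).indicator (fun x : ι → ℝ => ∏ i, phi (x i))
      = fun x => ∏ i, (s i).indicator phi (x i) := by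
    ext x
    by_cases hx : x ∈ Set.univ.pi s
    · rw [Set.indicator_of_mem hx]
      exact prod_congr rfl fun i _ => (Set.indicator_of_mem (hx i trivial) _).symm
    · rw [Set.indicator_of_notMem hx]
      simp only [Set.mem_pi, Set.mem_univ, true_imp_iff, not_forall] at hx
      obtain ⟨i, hi⟩ := hx
      exact (prod_eq_zero (mem_univ i) (Set.indicator_of_notMem hi _)).symm
  rw [this, integral_fintype_prod_volume_eq_prod (fun i => (s i).indicator phi),
    ENNReal.ofReal_prod_of_nonneg]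
  · exact prod_congr rfl fun i _ => (lap_apply (hs i)).symm
  · exact fun i _ => integral_nonneg fun y => Set.indicator_nonneg (fun y _ => (phi_pos y).le) _

lemma integral_pi_lap (f : (ι → ℝ) → ℝ) :
    ∫ x, f x ∂(Measure.pi fun _ : ι => lap) = ∫ x, (∏ i, phi (x i)) * f x := by
  rw [pi_lap, integral_withDensity_eq_integral_toReal_smul]
  · refine integral_congr_ae (ae_of_all _ fun x => ?_)
    simp only [smul_eq_mul]
    rw [ENNReal.toReal_ofReal (prod_nonneg fun i _ => (phi_pos _).le)]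
  · exact (continuous_finsetProd _ fun i _ =>
      continuous_phi.comp (continuous_apply i)).measurable.ennreal_ofReal
  · exact ae_of_all _ fun x => ENNReal.ofReal_lt_top

variable {α : Type*} (S : Finset α) (σ : α → ι → ℝ)

/-- likelihood -/
noncomputable def lik (t : ℝ) (s : α) (x : ι → ℝ) : ℝ := ∏ i, phi (x i - t * σ s i)

lemma lik_pos (t : ℝ) (s : α) (x : ι → ℝ) : 0 < lik σ t s x := prod_pos fun _ _ => phi_pos _

lemma continuous_lik (t : ℝ) (s : α) : Continuous (lik σ t s) :=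
  continuous_finsetProd _ fun i _ => continuous_phi.comp ((continuous_apply i).sub continuous_const)

/-- posterior weight -/
noncomputable def post (t : ℝ) (s : α) (x : ι → ℝ) : ℝ := lik σ t s x / ∑ s' ∈ S, lik σ t s' x

/-- posterior mean -/
noncomputable def pm (t : ℝ) (x : ι → ℝ) (i : ι) : ℝ := ∑ s ∈ S, post S σ t s x * σ s i

variable {S}

lemma sum_lik_pos (hS : S.Nonempty) (t : ℝ) (x : ι → ℝ) : 0 < ∑ s' ∈ S, lik σ t s' x :=
  sum_pos (fun _ _ => lik_pos _ _ _ _) hS

lemma post_nonneg (hS : S.Nonempty) (t : ℝ) (s : α) (x : ι → ℝ) : 0 ≤ post S σ t s x :=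
  div_nonneg (lik_pos _ _ _ _).le (sum_lik_pos σ hS t x).le

lemma sum_post (hS : S.Nonempty) (t : ℝ) (x : ι → ℝ) : ∑ s ∈ S, post S σ t s x = 1 := by
  unfold post
  rw [← sum_div, div_self (sum_lik_pos σ hS t x).ne']

lemma continuous_post (hS : S.Nonempty) (t : ℝ) (s : α) : Continuous (post S σ t s) :=
  (continuous_lik σ t s).div (continuous_finsetSum _ fun s' _ => continuous_lik σ t s')
    fun x => (sum_lik_pos σ hS t x).ne'

lemma continuous_pm (hS : S.Nonempty) (t : ℝ) : Continuous (pm S σ t) :=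
  continuous_pi fun _ => continuous_finsetSum _ fun s _ =>
    (continuous_post σ hS t s).mul continuous_const

variable (S)

/-- backward iteration of the exact chain -/
noncomputable def back (δ : ℝ) (g : (ι → ℝ) → ℝ) : ℕ → ℕ → (ι → ℝ) → ℝ
  | 0, _, x => g x
  | r + 1, j, x => ∑ s ∈ S, post S σ (j * δ) s x * back δ g r (j + 1) (fun i => x i + δ * σ s i)

/-- Euler steps started at step `j` -/
noncomputable def fwd (δ : ℝ) : ℕ → ℕ → (ι → ℝ) → ι → ℝ
  | 0, _, y => y
  | r + 1, j, y => fwd δ r (j + 1) (fun i => y i + δ * pm S σ (j * δ) y i)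

/-- Euler scheme -/
noncomputable def eulF (δ : ℝ) (ξ : ι → ℝ) : ℕ → ι → ℝ
  | 0 => ξ
  | j + 1 => fun i => eulF δ ξ j i + δ * pm S σ (j * δ) (eulF δ ξ j) i

lemma fwd_eulF (δ : ℝ) (ξ : ι → ℝ) (r j : ℕ) :
    fwd S σ δ r j (eulF S σ δ ξ j) = eulF S σ δ ξ (j + r) := by
  induction r generalizing j with
  | zero => rfl
  | succ r ih =>
    rw [fwd, ← add_assoc, add_right_comm, ← ih (j + 1)]
    rfl

variable {S}

lemma continuous_eulF (hS : S.Nonempty) (δ : ℝ) (j : ℕ) :
    Continuous fun ξ => eulF S σ δ ξ j := by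
  induction j with
  | zero => exact continuous_id
  | succ j ih =>
    refine continuous_pi fun i => ?_
    exact ((continuous_apply i).comp ih).add (continuous_const.mul
      ((continuous_apply i).comp ((continuous_pm σ hS _).comp ih)))

lemma back_mem (hS : S.Nonempty) (δ : ℝ) {g : (ι → ℝ) → ℝ} (hg : ∀ x, 0 ≤ g x ∧ g x ≤ 1)
    (r j : ℕ) (x : ι → ℝ) : 0 ≤ back S σ δ g r j x ∧ back S σ δ g r j x ≤ 1 := by
  induction r generalizing j x with
  | zero => exact hg x
  | succ r ih =>
    rw [back]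
    refine ⟨sum_nonneg fun s _ => mul_nonneg (post_nonneg σ hS _ _ _) (ih _ _).1, ?_⟩
    rw [← sum_post σ hS (j * δ) x]
    exact sum_le_sum fun s _ => mul_le_of_le_one_right (post_nonneg σ hS _ _ _) (ih _ _).2

lemma measurable_back (hS : S.Nonempty) (δ : ℝ) {g : (ι → ℝ) → ℝ} (hg : Measurable g)
    (r j : ℕ) : Measurable (back S σ δ g r j) := by
  induction r generalizing j with
  | zero => exact hg
  | succ r ih =>
    have : back S σ δ g (r + 1) j = fun x => ∑ s ∈ S, post S σ (j * δ) s x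
        * back S σ δ g r (j + 1) (fun i => x i + δ * σ s i) := by
      ext x; rw [back]
    rw [this]
    refine Finset.measurable_sum _ fun s _ => (continuous_post σ hS _ s).measurable.mul ?_
    exact (ih (j + 1)).comp (by fun_prop)

lemma integral_shift (t δ : ℝ) (s : α) (u : (ι → ℝ) → ℝ) :
    ∫ x, lik σ t s x * u (fun i => x i + δ * σ s i) = ∫ x, lik σ (t + δ) s x * u x := by
  rw [← integral_add_right_eq_self (fun x => lik σ (t + δ) s x * u x) (fun i => δ * σ s i)]
  refine integral_congr_ae (ae_of_all _ fun x => ?_)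
  simp only [lik, Pi.add_apply]
  congr 1
  refine prod_congr rfl fun i _ => ?_
  congr 1; ring

lemma integrable_lik_mul (t : ℝ) (s : α) {u : (ι → ℝ) → ℝ} (hu : Measurable u)
    (hb : ∀ x, 0 ≤ u x ∧ u x ≤ 1) : Integrable fun x => lik σ t s x * u x :=
  (integrable_prod_phi fun i => t * σ s i).mul_bdd (c := 1) hu.aestronglyMeasurable
    (ae_of_all _ fun x => by rw [Real.norm_of_nonneg (hb x).1]; exact (hb x).2)

lemma integral_back (hS : S.Nonempty) (δ : ℝ) {g : (ι → ℝ) → ℝ} (hgm : Measurable g)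
    (hg : ∀ x, 0 ≤ g x ∧ g x ≤ 1) (r j : ℕ) :
    ∑ s ∈ S, ∫ x, lik σ (j * δ) s x * back S σ δ g r j x
      = ∑ s ∈ S, ∫ x, lik σ ((j + r : ℕ) * δ) s x * g x := by
  induction r generalizing j with
  | zero => rfl
  | succ r ih =>
    rw [← add_assoc, add_right_comm, ← ih (j + 1), ← integral_finsetSum _ fun s _ =>
      integrable_lik_mul σ _ s (measurable_back σ hS δ hgm _ _) (back_mem σ hS δ hg _ _)]
    have h1 : ∀ x, ∑ s ∈ S, lik σ (j * δ) s x * back S σ δ g (r + 1) j x
        = ∑ s ∈ S, lik σ (j * δ) s x * back S σ δ g r (j + 1) (fun i => x i + δ * σ s i) := by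
      intro x
      rw [← sum_mul, back, mul_sum]
      refine sum_congr rfl fun s _ => ?_
      have := (sum_lik_pos σ hS (j * δ) x).ne'
      unfold post
      field_simp
    simp_rw [h1]
    rw [integral_finsetSum _ fun s _ => integrable_lik_mul σ _ s
      (u := fun x => back S σ δ g r (j + 1) (fun i => x i + δ * σ s i))
      ((measurable_back σ hS δ hgm _ _).comp (by fun_prop))
      (fun x => back_mem σ hS δ hg _ _ _)]
    refine sum_congr rfl fun s _ => ?_
    rw [integral_shift]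
    push_cast
    rw [add_mul, one_mul]

/-- squared Euclidean distance -/
def Q (x y : ι → ℝ) : ℝ := ∑ i, (x i - y i) ^ 2

lemma Q_nonneg (x y : ι → ℝ) : 0 ≤ Q x y := sum_nonneg fun _ _ => sq_nonneg _

lemma pm_mem (hS : S.Nonempty) (hσ : ∀ s i, 0 ≤ σ s i ∧ σ s i ≤ 1) (t : ℝ) (x : ι → ℝ) (i : ι) :
    0 ≤ pm S σ t x i ∧ pm S σ t x i ≤ 1 := by
  refine ⟨sum_nonneg fun s _ => mul_nonneg (post_nonneg σ hS _ _ _) (hσ _ _).1, ?_⟩
  rw [← sum_post σ hS t x]
  exact sum_le_sum fun s _ => mul_le_of_le_one_right (post_nonneg σ hS _ _ _) (hσ _ _).2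

lemma step_Q (hS : S.Nonempty) (hσ : ∀ s i, 0 ≤ σ s i ∧ σ s i ≤ 1)
    (hLip : ∀ t x y d, 0 ≤ d → (∀ i, |x i - y i| ≤ d) → ∀ i, |pm S σ t x i - pm S σ t y i| ≤ 4 * d)
    {δ : ℝ} (hδ : 0 ≤ δ) (hδ1 : δ ≤ 1) (t : ℝ) (x y : ι → ℝ) :
    ∑ s ∈ S, post S σ t s x * Q (fun i => x i + δ * σ s i) (fun i => y i + δ * pm S σ t y i)
      ≤ (1 + 24 * Fintype.card ι * δ) * Q x y + δ ^ 2 * Fintype.card ι := by
  set d := Real.sqrt (Q x y) with hd
  have hd0 : 0 ≤ d := Real.sqrt_nonneg _
  have hd2 : d ^ 2 = Q x y := Real.sq_sqrt (Q_nonneg x y)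
  have hxy : ∀ i, |x i - y i| ≤ d := fun i =>
    Real.abs_le_sqrt (single_le_sum (f := fun i => (x i - y i) ^ 2)
      (fun _ _ => sq_nonneg _) (mem_univ i))
  have hL := hLip t x y d hd0 hxy
  have key : ∀ i, ∑ s ∈ S, post S σ t s x * (x i + δ * σ s i - (y i + δ * pm S σ t y i)) ^ 2
      ≤ (x i - y i) ^ 2 + 24 * δ * d ^ 2 + δ ^ 2 := by
    intro i
    set a := x i - y i + δ * (pm S σ t x i - pm S σ t y i) with ha
    have h1 : ∑ s ∈ S, post S σ t s x * (x i + δ * σ s i - (y i + δ * pm S σ t y i)) ^ 2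
        ≤ ∑ s ∈ S, (post S σ t s x * (a ^ 2 - 2 * a * δ * pm S σ t x i + δ ^ 2)
          + 2 * a * δ * (post S σ t s x * σ s i)) := by
      refine sum_le_sum fun s _ => ?_
      have h2 := post_nonneg σ hS t s x
      have h3 := pm_mem σ hS hσ t x i
      have h4 := hσ s i
      have h5 : (σ s i - pm S σ t x i) ^ 2 ≤ 1 := by
        rw [sq_le_one_iff_abs_le_one, abs_le]; constructor <;> linarith [h3.1, h3.2, h4.1, h4.2]
      have h6 : x i + δ * σ s i - (y i + δ * pm S σ t y i) = a + δ * (σ s i - pm S σ t x i) := by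
        rw [ha]; ring
      rw [h6]
      nlinarith [mul_nonneg h2 (mul_nonneg (sq_nonneg δ) (sub_nonneg.2 h5))]
    rw [sum_add_distrib, ← sum_mul, sum_post σ hS, ← mul_sum] at h1
    have h7 : ∑ s ∈ S, post S σ t s x * σ s i = pm S σ t x i := rfl
    rw [h7] at h1
    have h8 : |a| ≤ |x i - y i| + δ * (4 * d) := by
      refine (abs_add_le _ _).trans (add_le_add le_rfl ?_)
      rw [abs_mul, abs_of_nonneg hδ]
      exact mul_le_mul_of_nonneg_left (hL i) hδ
    have h9 : a ^ 2 ≤ (|x i - y i| + δ * (4 * d)) ^ 2 := by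
      rw [← sq_abs a]; exact pow_le_pow_left₀ (abs_nonneg _) h8 2
    have h10 : (x i - y i) ^ 2 = |x i - y i| ^ 2 := (sq_abs _).symm
    have h11 := mul_le_mul_of_nonneg_left (hxy i) (mul_nonneg hδ hd0)
    have h12 : δ ^ 2 * d ^ 2 ≤ δ * d ^ 2 :=
      mul_le_mul_of_nonneg_right (by nlinarith) (sq_nonneg d)
    nlinarith
  have h0 : ∀ s, post S σ t s x * Q (fun i => x i + δ * σ s i) (fun i => y i + δ * pm S σ t y i)
      = ∑ i, post S σ t s x * (x i + δ * σ s i - (y i + δ * pm S σ t y i)) ^ 2 := by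
    intro s; rw [Q, mul_sum]
  simp_rw [h0]
  rw [sum_comm]
  refine (sum_le_sum fun i _ => key i).trans (le_of_eq ?_)
  rw [sum_add_distrib, sum_add_distrib, hd2]
  have h00 : ∑ i, (x i - y i) ^ 2 = Q x y := rfl
  simp only [sum_const, card_univ, nsmul_eq_mul, h00]
  ring

lemma back_le (hS : S.Nonempty) (hσ : ∀ s i, 0 ≤ σ s i ∧ σ s i ≤ 1)
    (hLip : ∀ t x y d, 0 ≤ d → (∀ i, |x i - y i| ≤ d) → ∀ i, |pm S σ t x i - pm S σ t y i| ≤ 4 * d)
    {δ : ℝ} (hδ : 0 ≤ δ) (hδ1 : δ ≤ 1) {g g' : (ι → ℝ) → ℝ} (hg : ∀ x y, g x ≤ g' y + Q x y)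
    (r j : ℕ) (x y : ι → ℝ) :
    back S σ δ g r j x ≤ g' (fwd S σ δ r j y) + (1 + 24 * Fintype.card ι * δ) ^ r
      * (Q x y + r * (δ ^ 2 * Fintype.card ι)) := by
  induction r generalizing j x y with
  | zero => simpa [back, fwd] using hg x y
  | succ r ih =>
    rw [back, fwd]
    set K := 1 + 24 * Fintype.card ι * δ with hK
    have hK1 : 1 ≤ K := by rw [hK]; linarith [show 0 ≤ 24 * Fintype.card ι * δ by positivity]
    set y' : ι → ℝ := fun i => y i + δ * pm S σ (j * δ) y i with hy'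
    have h1 : ∑ s ∈ S, post S σ (j * δ) s x * back S σ δ g r (j + 1) (fun i => x i + δ * σ s i)
        ≤ ∑ s ∈ S, (post S σ (j * δ) s x * (g' (fwd S σ δ r (j + 1) y')
          + K ^ r * (r * (δ ^ 2 * Fintype.card ι)))
          + K ^ r * (post S σ (j * δ) s x * Q (fun i => x i + δ * σ s i) y')) := by
      refine sum_le_sum fun s _ => ?_
      refine (mul_le_mul_of_nonneg_left (ih (j + 1) _ y') (post_nonneg σ hS _ _ _)).trans
        (le_of_eq ?_)
      ring
    rw [sum_add_distrib, ← sum_mul, sum_post σ hS, ← mul_sum] at h1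
    have h2 := step_Q σ hS hσ hLip hδ hδ1 (j * δ) x y
    have h3 : 0 ≤ K ^ r := by positivity
    have h4 := mul_le_mul_of_nonneg_left h2 h3
    have h5 : 0 ≤ δ ^ 2 * Fintype.card ι := by positivity
    have h6 : K ^ r * ((r + 1) * (δ ^ 2 * Fintype.card ι))
        ≤ K ^ r * K * ((r + 1) * (δ ^ 2 * Fintype.card ι)) := by
      rw [mul_assoc]
      exact mul_le_mul_of_nonneg_left (le_mul_of_one_le_left (by positivity) hK1) h3
    rw [pow_succ]
    push_cast
    nlinarith

theorem fin_exact (hS : S.Nonempty) (hσ : ∀ s i, 0 ≤ σ s i ∧ σ s i ≤ 1)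
    (hLip : ∀ t x y d, 0 ≤ d → (∀ i, |x i - y i| ≤ d) → ∀ i, |pm S σ t x i - pm S σ t y i| ≤ 4 * d)
    {δ : ℝ} (hδ : 0 ≤ δ) (hδ1 : δ ≤ 1) (N : ℕ) {A A' : Set (ι → ℝ)} (hA : MeasurableSet A)
    (hA' : MeasurableSet A') (hAA : ∀ x ∈ A, ∀ y : ι → ℝ, (∀ i, |x i - y i| ≤ 1) → y ∈ A') :
    ∑ s ∈ S, (Measure.pi fun _ : ι => lap).real {x | (fun i => x i + N * δ * σ s i) ∈ A}
      ≤ S.card * ((Measure.pi fun _ : ι => lap).real {x | eulF S σ δ x N ∈ A'}
        + (1 + 24 * Fintype.card ι * δ) ^ N * (N * (δ ^ 2 * Fintype.card ι))) := by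
  set P := Measure.pi fun _ : ι => lap with hP
  let g : (ι → ℝ) → ℝ := A.indicator 1
  let g' : (ι → ℝ) → ℝ := A'.indicator 1
  have hgm : Measurable g := measurable_one.indicator hA
  have hg : ∀ x, 0 ≤ g x ∧ g x ≤ 1 := fun x => by
    by_cases hx : x ∈ A <;> simp [g, hx]
  have hgg : ∀ x y, g x ≤ g' y + Q x y := by
    intro x y
    by_cases hx : x ∈ A
    · by_cases hy : y ∈ A'
      · simp [g, g', hx, hy, Q_nonneg]
      · simp only [g, g', Set.indicator_of_mem hx, Set.indicator_of_notMem hy, Pi.one_apply,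
          zero_add]
        by_contra hlt
        refine hy (hAA x hx y fun i => ?_)
        rw [← sq_le_one_iff_abs_le_one]
        exact (single_le_sum (f := fun i => (x i - y i) ^ 2)
          (fun _ _ => sq_nonneg _) (mem_univ i)).trans (not_le.1 hlt).le
    · have := Q_nonneg x y
      by_cases hy : y ∈ A' <;> simp [g, g', hx, hy] <;> linarith
  have h1 := integral_back σ hS δ hgm hg N 0
  have h2 : ∀ s, P.real {x | (fun i => x i + N * δ * σ s i) ∈ A}
      = ∫ x, lik σ ((0 + N : ℕ) * δ) s x * g x := by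
    intro s
    have hm : MeasurableSet {x : ι → ℝ | (fun i => x i + N * δ * σ s i) ∈ A} :=
      hA.preimage (by fun_prop)
    have := integral_shift σ 0 (N * δ) s g
    rw [zero_add] at this
    rw [zero_add, ← this, ← integral_indicator_one hm, hP, integral_pi_lap]
    refine integral_congr_ae (ae_of_all _ fun x => ?_)
    simp only [lik, zero_mul, sub_zero]
    rfl
  have h3 : ∀ s, ∫ x, lik σ ((0 : ℕ) * δ) s x * back S σ δ g N 0 x = ∫ x, back S σ δ g N 0 x ∂P := by
    intro s
    rw [hP, integral_pi_lap]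
    simp [lik]
  simp_rw [h2]
  rw [← h1]
  simp_rw [h3]
  rw [sum_const, nsmul_eq_mul]
  refine mul_le_mul_of_nonneg_left ?_ (Nat.cast_nonneg _)
  have hm : MeasurableSet {x | eulF S σ δ x N ∈ A'} :=
    hA'.preimage (continuous_eulF σ hS δ N).measurable
  set c := (1 + 24 * Fintype.card ι * δ) ^ N * (N * (δ ^ 2 * Fintype.card ι)) with hc
  have h4 : ∫ x, ({x | eulF S σ δ x N ∈ A'}.indicator 1 x + c) ∂P
      = P.real {x | eulF S σ δ x N ∈ A'} + c := by
    rw [integral_add (f := Set.indicator _ 1) ((integrable_const (1 : ℝ)).indicator hm)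
      (integrable_const _), integral_indicator_one hm]
    simp
  rw [← h4]
  refine integral_mono_of_nonneg (ae_of_all _ fun x => (back_mem σ hS δ hg _ _ _).1)
    (((integrable_const (1 : ℝ)).indicator hm).add (integrable_const _)) (ae_of_all _ fun x => ?_)
  have h5 := back_le σ hS hσ hLip hδ hδ1 hgg N 0 x x
  have h6 : fwd S σ δ N 0 x = eulF S σ δ x N := by
    have := fwd_eulF S σ δ x N 0
    rw [zero_add] at this
    exact this
  have h7 : Q x x = 0 := by simp [Q]
  rw [h6, h7, zero_add] at h5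
  exact h5

end Vale.Agent.P143
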