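import Vale.Agent.P143.Main
import Vale.Agent.P143.Defs

/-! Weak convergence and the final statements. -/

namespace Vale.Agent.P143

open MeasureTheory Measure ProbabilityTheory Filter Topology Finset unitInterval

lemma tendsto_of_upper {E : Type*} [Countable E] (ν : ℕ → ProbabilityMeasure (E → Bool))
    (μ : ProbabilityMeasure (E → Bool))
    (h : ∀ (B : Finset E) (β : E → Bool) (ε : ℝ), 0 < ε → ∀ᶠ n in atTop,
      (ν n : Measure (E → Bool)).real {ω | ∀ e ∈ B, ω e = β e}
        ≤ (μ : Measure (E → Bool)).real {ω | ∀ e ∈ B, ω e = β e} + ε) :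
    Tendsto ν atTop (𝓝 μ) := by
  classical
  have up : ∀ (B : Finset E) (A : Set (B → Bool)) (ε : ℝ), 0 < ε → ∀ᶠ n in atTop,
      (ν n : Measure (E → Bool)).real (cylinder B A)
        ≤ (μ : Measure (E → Bool)).real (cylinder B A) + ε := by
    intro B A ε hε
    have hA : ∀ P : Measure (E → Bool), IsProbabilityMeasure P → P.real (cylinder B A)
        = ∑ a ∈ A.toFinset, P.real (B.restrict ⁻¹' {a}) := by
      intro P _
      rw [sum_measureReal_preimage_singleton (μ := P) A.toFinset
        (f := (B.restrict : (E → Bool) → B → Bool)) (fun a _ =>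
        (B.measurable_restrict (measurableSet_singleton a))) fun _ _ => measure_ne_top _ _,
        Set.coe_toFinset]
      rfl
    have h1 : ∀ a : B → Bool, (B.restrict ⁻¹' {a} : Set (E → Bool))
        = {ω | ∀ e ∈ B, ω e = (fun e => if he : e ∈ B then a ⟨e, he⟩ else false) e} := by
      intro a
      ext ω
      simp only [Set.mem_preimage, Set.mem_singleton_iff, Set.mem_ofPred_eq, funext_iff,
        Subtype.forall, Finset.restrict]
      exact forall₂_congr fun e he => by simp [he]
    have hpos : 0 < ε / (A.toFinset.card + 1) := by positivity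
    have h2 : ∀ᶠ n in atTop, ∀ a ∈ A.toFinset, (ν n : Measure (E → Bool)).real (B.restrict ⁻¹' {a})
        ≤ (μ : Measure (E → Bool)).real (B.restrict ⁻¹' {a}) + ε / (A.toFinset.card + 1) := by
      refine (eventually_all_finset _).2 fun a _ => ?_
      rw [h1]
      exact h B _ _ hpos
    filter_upwards [h2] with n hn
    rw [hA _ inferInstance, hA _ inferInstance]
    refine (sum_le_sum hn).trans ?_
    rw [sum_add_distrib, sum_const, nsmul_eq_mul]
    have : (A.toFinset.card : ℝ) * (ε / (A.toFinset.card + 1)) ≤ ε := by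
      rw [← mul_div_assoc, div_le_iff₀ (by positivity)]; nlinarith
    linarith
  refine isPiSystem_measurableCylinders.tendsto_probabilityMeasure_of_tendsto_of_mem
    (fun s hs => MeasurableSet.of_mem_measurableCylinders hs) ?_ ?_
  · intro u hu x hx
    obtain ⟨B, w, h1, h2⟩ := isOpen_pi_iff.1 hu x hx
    have h3 : cylinder B (Set.univ.pi fun i : B => w i) = (B : Set E).pi w := by
      ext y; simp [cylinder]
    refine ⟨_, cylinder_mem_measurableCylinders B (Set.univ.pi fun i : B => w i)
      (MeasurableSet.univ_pi fun _ => MeasurableSet.of_discrete), ?_, ?_⟩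
    · rw [h3]
      exact set_pi_mem_nhds B.finite_toSet fun a ha => (h1 a ha).1.mem_nhds (h1 a ha).2
    · rw [h3]; exact h2
  · intro s hs
    have hm := MeasurableSet.of_mem_measurableCylinders hs
    obtain ⟨B, A, hA, rfl⟩ := (mem_measurableCylinders s).1 hs
    rw [← NNReal.tendsto_coe]
    simp only [← ProbabilityMeasure.measureReal_eq_coe_coeFn]
    refine Metric.tendsto_nhds.2 fun ε hε => ?_
    filter_upwards [up B A (ε / 2) (by positivity), up B Aᶜ (ε / 2) (by positivity)] with n h1 h2
    rw [← compl_cylinder, probReal_compl_eq_one_sub hm, probReal_compl_eq_one_sub hm] at h2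
    rw [Real.dist_eq, abs_lt]
    constructor <;> linarith

variable {V : Type*}

lemma isTree_iff {S : Set V} {W : Finset V} (hS : ∀ x, x ∈ S ↔ x ∈ W) (hne : S.Nonempty)
    {D F : Finset (Sym2 V)} (hD : Inside W D) (hF : F ⊆ D)
    {K : SimpleGraph S} (hK : ∀ x y : S, K.Adj x y ↔ s(x.1, y.1) ∈ F) :
    K.IsTree ↔ F ∈ trees W D := by
  have hSW : S = ↑W := Set.ext hS
  have : Finite S := by rw [hSW]; infer_instance
  have : Nonempty S := hne.to_subtype
  have hc : Nat.card S = W.card := by rw [hSW]; simp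
  rw [SimpleGraph.isTree_iff_connected_and_card, mem_trees, card_edgeSet_eq hS (hD.mono hF) hK,
    SimpleGraph.connected_iff, connected_iff_reach hS (hD.mono hF) hK, hc]
  tauto

open Classical in
/-- configuration of an edge set -/
noncomputable def cfg (G : SimpleGraph V) (T : Finset (Sym2 V)) : G.edgeSet → Bool :=
  fun e => decide (e.1 ∈ T)

lemma exists_data {G : SimpleGraph V} (H : G.Subgraph) (hf : H.verts.Finite) :
    ∃ (W : Finset V) (D : Finset (Sym2 V)), (∀ x, x ∈ H.verts ↔ x ∈ W)
      ∧ (↑D : Set (Sym2 V)) = H.edgeSet ∧ Inside W D := by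
  have h1 : H.edgeSet.Finite := by
    refine ((hf.prod hf).image fun p => s(p.1, p.2)).subset fun e he => ?_
    induction e using Sym2.ind with
    | _ x y => exact ⟨(x, y), ⟨H.edge_vert he, H.edge_vert (H.adj_symm he)⟩, rfl⟩
  refine ⟨hf.toFinset, h1.toFinset, by simp, by simp, fun x y hxy => ?_⟩
  have : H.Adj x y := by simpa using hxy
  exact ⟨this.ne, by simpa using H.edge_vert this⟩

lemma spanningTrees_eq {G : SimpleGraph V} {H : G.Subgraph} (hne : H.verts.Nonempty)
    {W : Finset V} {D : Finset (Sym2 V)} (hW : ∀ x, x ∈ H.verts ↔ x ∈ W)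
    (hD : (↑D : Set (Sym2 V)) = H.edgeSet) (hI : Inside W D) :
    spanningTrees H = cfg G '' ↑(trees W D) := by
  classical
  ext ω
  constructor
  · rintro ⟨T, hTH, hv, ht, hω⟩
    have hsub : T.edgeSet ⊆ ↑D := hD ▸ SimpleGraph.Subgraph.edgeSet_mono hTH
    have hfin : T.edgeSet.Finite := D.finite_toSet.subset hsub
    refine ⟨hfin.toFinset, (isTree_iff (S := T.verts) (fun x => hv ▸ hW x) (hv ▸ hne) hI
      (by simpa using hsub) (by simp)).1 ht, ?_⟩
    ext e
    rw [Bool.eq_iff_iff, hω]
    simp [cfg]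
  · rintro ⟨F, hF, rfl⟩
    have hFD : F ⊆ D := (mem_trees.1 hF).1
    have hadj : ∀ x y, s(x, y) ∈ F → H.Adj x y := fun x y h => by
      have : s(x, y) ∈ H.edgeSet := hD ▸ hFD h
      exact this
    let T : G.Subgraph :=
      { verts := H.verts
        Adj := fun x y => s(x, y) ∈ F
        adj_sub := fun h => H.adj_sub (hadj _ _ h)
        edge_vert := fun h => H.edge_vert (hadj _ _ h)
        symm := ⟨fun x y h => by rwa [Sym2.eq_swap]⟩ }
    refine ⟨T, ⟨le_rfl, fun x y h => hadj x y h⟩, rfl,
      (isTree_iff (S := T.verts) hW hne hI hFD fun _ _ => Iff.rfl).2 hF, ?_⟩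
    rintro ⟨e, he⟩
    induction e using Sym2.ind with
    | _ x y => simp [cfg, T]

lemma trees_nonempty {G : SimpleGraph V} {H : G.Subgraph} (hc : H.Connected)
    {W : Finset V} {D : Finset (Sym2 V)} (hW : ∀ x, x ∈ H.verts ↔ x ∈ W)
    (hD : (↑D : Set (Sym2 V)) = H.edgeSet) (hI : Inside W D) : (trees W D).Nonempty := by
  classical
  obtain ⟨K, hK, ht⟩ := hc.coe.exists_isTree_le
  refine ⟨D.filter fun e => e ∈ Sym2.map Subtype.val '' K.edgeSet,
    (isTree_iff hW hc.nonempty hI (filter_subset _ _) fun x y => ?_).1 ht⟩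
  rw [mem_filter]
  constructor
  · intro h
    refine ⟨?_, s(x, y), h, rfl⟩
    have : s(x.1, y.1) ∈ H.edgeSet := hK h
    rwa [← hD] at this
  · rintro ⟨-, e, he, h2⟩
    have : e = s(x, y) := Sym2.map.injective Subtype.val_injective h2
    rwa [this] at he

lemma uniformOn_real {Ω α : Type*} [MeasurableSpace Ω] [MeasurableSingletonClass Ω]
    (S : Finset α) {c : α → Ω} (hc : Set.InjOn c S) (C : Set Ω) [DecidablePred fun a => c a ∈ C] :
    (uniformOn (c '' ↑S)).real C = (S.filter fun a => c a ∈ C).card / S.card := by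
  classical
  have h1 : c '' ↑S ∩ C = ↑((S.filter fun a => c a ∈ C).image c) := by
    ext ω
    simp only [Set.mem_inter_iff, Set.mem_image, mem_coe, coe_image, mem_filter]
    constructor
    · rintro ⟨⟨a, ha, rfl⟩, h⟩; exact ⟨a, ⟨ha, h⟩, rfl⟩
    · rintro ⟨a, ⟨ha, h⟩, rfl⟩; exact ⟨⟨a, ha, rfl⟩, h⟩
  rw [Measure.real, uniformOn, cond_apply (S.finite_toSet.image c).measurableSet, h1,
    ← coe_image, count_apply_finset, count_apply_finset, card_image_of_injOn hc,
    card_image_of_injOn (hc.mono (coe_subset.2 (filter_subset _ _)))]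
  simp [div_eq_inv_mul]

/-- balls -/
def ball (G : SimpleGraph V) (o : V) : ℕ → Set V
  | 0 => {o}
  | n + 1 => ball G o n ∪ ⋃ v ∈ ball G o n, G.neighborSet v

lemma ball_finite {G : SimpleGraph V} (hG : ∀ v, (G.neighborSet v).Finite) (o : V) (n : ℕ) :
    (ball G o n).Finite := by
  induction n with
  | zero => exact Set.finite_singleton o
  | succ n ih => exact ih.union (ih.biUnion fun v _ => hG v)

lemma ball_mono (G : SimpleGraph V) (o : V) : Monotone (ball G o) :=
  monotone_nat_of_le_succ fun _ => Set.subset_union_left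

lemma exists_mem_ball {G : SimpleGraph V} {o v : V} (h : G.Reachable o v) :
    ∃ n, v ∈ ball G o n := by
  rw [SimpleGraph.reachable_iff_reflTransGen] at h
  induction h with
  | refl => exact ⟨0, rfl⟩
  | tail _ h2 ih =>
    obtain ⟨n, hn⟩ := ih
    exact ⟨n + 1, Or.inr (Set.mem_biUnion hn h2)⟩

lemma reachable_ball (G : SimpleGraph V) (o : V) {S : Set V} (ho : o ∈ S) (n : ℕ)
    (hS : ball G o n ⊆ S) {v : V} (hv : v ∈ ball G o n) :
    (G.induce S).Reachable ⟨o, ho⟩ ⟨v, hS hv⟩ := by
  induction n generalizing v with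
  | zero => obtain rfl : v = o := hv; rfl
  | succ n ih =>
    have hS' : ball G o n ⊆ S := Set.subset_union_left.trans hS
    rcases hv with hv | hv
    · exact ih hS' hv
    · obtain ⟨u, hu, huv⟩ := Set.mem_iUnion₂.1 hv
      exact (ih hS' hu).trans (SimpleGraph.Adj.reachable (G := G.induce S) huv)

lemma countable_of_connected {G : SimpleGraph V} (hc : G.Connected)
    (hG : ∀ v, (G.neighborSet v).Finite) : Countable V := by
  obtain ⟨o⟩ := hc.nonempty
  rw [← Set.countable_univ_iff]
  refine (Set.countable_iUnion fun n => (ball_finite hG o n).countable).mono fun v _ => ?_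
  exact Set.mem_iUnion.2 (exists_mem_ball (hc o v))

lemma exists_exhaustion {G : SimpleGraph V} (hc : G.Connected)
    (hG : ∀ v, (G.neighborSet v).Finite) : ∃ H, IsExhaustion G H := by
  obtain ⟨o⟩ := hc.nonempty
  have ho : ∀ n, o ∈ ball G o n := fun n => ball_mono G o (Nat.zero_le n) rfl
  refine ⟨fun n => (⊤ : G.Subgraph).induce (ball G o n), fun n => ball_finite hG o n,
    fun n => ?_, fun m n h => SimpleGraph.Subgraph.induce_mono_right (ball_mono G o h), ?_⟩
  · rw [← SimpleGraph.connected_induce_iff, SimpleGraph.connected_iff_exists_forall_reachable]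
    exact ⟨⟨o, ho n⟩, fun v => reachable_ball G o (ho n) n le_rfl v.2⟩
  · refine le_antisymm le_top ⟨fun v _ => ?_, fun u v huv => ?_⟩
    · rw [SimpleGraph.Subgraph.verts_iSup]
      exact Set.mem_iUnion.2 (exists_mem_ball (hc o v))
    · obtain ⟨n, hn⟩ := exists_mem_ball (hc o u)
      refine SimpleGraph.Subgraph.iSup_adj.2 ⟨n + 1, Or.inl hn, Or.inr (Set.mem_biUnion hn huv),
        huv⟩

theorem isFUSF_Phi [Countable V] {G : SimpleGraph V} (hc : G.Connected)
    (hG : ∀ v, (G.neighborSet v).Finite) :
    IsFUSF G ((iid V).map fun U (e : G.edgeSet) => Phi G U e) := by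
  classical
  have hm : Measurable fun (U : V → I) (e : G.edgeSet) => Phi G U e :=
    measurable_pi_lambda _ fun e => (measurable_Phi e.1).comp (f := fun U : V → I => (G, U))
      (by fun_prop)
  have hP : IsProbabilityMeasure ((iid V).map fun U (e : G.edgeSet) => Phi G U e) :=
    isProbabilityMeasure_map hm.aemeasurable
  refine ⟨hP, exists_exhaustion hc hG, fun H hH f => ?_⟩
  choose W D hW hD hI using fun n => exists_data (H n) (hH.finite n)
  have hne := fun n => trees_nonempty (hH.connected n) (hW n) (hD n) (hI n)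
  have hst := fun n => spanningTrees_eq (hH.connected n).nonempty (hW n) (hD n) (hI n)
  have hPn : ∀ n, IsProbabilityMeasure (uniformOn (spanningTrees (H n))) := fun n => by
    rw [hst]
    exact isProbabilityMeasure_uniformOn ((finite_toSet _).image _)
      ((coe_nonempty.2 (hne n)).image _)
  have hev : ∀ e ∈ G.edgeSet, ∀ᶠ n in atTop, e ∈ (H n).spanningCoe.edgeSet := by
    intro e he
    rw [← SimpleGraph.Subgraph.edgeSet_top, ← hH.union, SimpleGraph.Subgraph.edgeSet_iSup] at he
    obtain ⟨n, hn⟩ := Set.mem_iUnion.1 he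
    exact eventually_atTop.2 ⟨n, fun m hm => SimpleGraph.Subgraph.edgeSet_mono (hH.mono hm) hn⟩
  have key := tendsto_of_upper (fun n => ⟨_, hPn n⟩) ⟨_, hP⟩ fun B β ε hε => by
    let B' : Finset (Sym2 V) := B.map (Function.Embedding.subtype _)
    let β' : Sym2 V → Bool := fun e => if he : e ∈ G.edgeSet then β ⟨e, he⟩ else false
    have hB : ∀ (p : Sym2 V → Bool), (∀ e ∈ B', p e = β' e) ↔ ∀ e ∈ B, p e = β e := by
      intro p
      simp only [B', Finset.mem_map, Function.Embedding.coe_subtype, forall_exists_index, and_imp,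
        forall_apply_eq_imp_iff₂]
      exact forall₂_congr fun e _ => by simp [β', e.2]
    have h1 := ratio_le hG (H := fun n => (H n).spanningCoe) (fun n => (H n).spanningCoe_le) hev
      hD hI hne (B := B') (by
        intro e he
        obtain ⟨a, -, rfl⟩ := Finset.mem_map.1 he
        exact a.2) β' hε
    have hmC : MeasurableSet {ω : G.edgeSet → Bool | ∀ e ∈ B, ω e = β e} := by
      have : {ω : G.edgeSet → Bool | ∀ e ∈ B, ω e = β e} = ⋂ e ∈ B, {ω | ω e = β e} := by
        ext; simp
      rw [this]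
      exact B.measurableSet_biInter fun e _ =>
        measurableSet_eq_fun (measurable_pi_apply e) measurable_const
    filter_upwards [h1] with n hn
    simp only [ProbabilityMeasure.coe_mk]
    rw [map_measureReal_apply hm hmC, hst, uniformOn_real]
    · unfold ratio at hn
      simp only [hB (Phi G _), hB fun e => decide (e ∈ _)] at hn
      exact hn
    · intro T hT T' hT' h
      have h2 : ∀ T ∈ (trees (W n) (D n) : Set (Finset (Sym2 V))), ∀ e ∈ T, e ∈ G.edgeSet := by
        intro T hT e he
        have : e ∈ (H n).edgeSet := hD n ▸ (mem_trees.1 hT).1 he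
        exact (H n).edgeSet_subset this
      ext e
      by_cases he : e ∈ G.edgeSet
      · simpa [cfg] using congrFun h ⟨e, he⟩
      · exact ⟨fun h3 => (he (h2 T hT e h3)).elim, fun h3 => (he (h2 T' hT' e h3)).elim⟩
  exact ProbabilityMeasure.tendsto_iff_forall_integral_tendsto.1 key
    (BoundedContinuousFunction.mkOfCompact f)

lemma cayley_connected {Γ : Type*} [Group Γ] {S : Set Γ} (hS : Subgroup.closure S = ⊤) :
    (SimpleGraph.mulCayley S).Connected := by
  rw [SimpleGraph.connected_iff_exists_forall_reachable]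
  refine ⟨1, fun g => ?_⟩
  have hg : g ∈ Subgroup.closure S := hS ▸ Subgroup.mem_top g
  induction hg using Subgroup.closure_induction_right with
  | one => rfl
  | mul_right x _ y hy ih =>
    by_cases h : x = x * y
    · rw [← h]; exact ih
    · exact ih.trans ((SimpleGraph.mulCayley_adj' _ _ _).2 ⟨h, y, hy, Or.inl rfl⟩).reachable
  | mul_inv_cancel x _ y hy ih =>
    by_cases h : x = x * y⁻¹
    · rw [← h]; exact ih
    · exact ih.trans ((SimpleGraph.mulCayley_adj' _ _ _).2 ⟨h, y, hy, Or.inr (by simp)⟩).reachable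

lemma cayley_finite {Γ : Type*} [Group Γ] {S : Set Γ} (hS : S.Finite) (v : Γ) :
    ((SimpleGraph.mulCayley S).neighborSet v).Finite := by
  refine ((hS.image fun g => v * g).union (hS.image fun g => v * g⁻¹)).subset fun w hw => ?_
  obtain ⟨-, g, hg, h | h⟩ := (SimpleGraph.mulCayley_adj' _ _ _).1 hw
  · exact Or.inl ⟨g, hg, h⟩
  · exact Or.inr ⟨g, hg, by simp [h]⟩

/-- left multiplication as an automorphism of the Cayley graph -/
def cayleyIso {Γ : Type*} [Group Γ] (S : Set Γ) (γ : Γ) :
    SimpleGraph.mulCayley S ≃g SimpleGraph.mulCayley S where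
  toEquiv := Equiv.mulLeft γ
  map_rel_iff' := by
    intro a b
    simp [SimpleGraph.mulCayley_adj', mul_assoc]

end Vale.Agent.P143
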