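import Vale.Agent.P143.Cond

/-! Kirchhoff's formula for weighted spanning trees. -/

namespace Vale.Agent.P143

open Finset unitInterval

variable {V : Type*}

/-- reachability using the edges of `F` -/
def reach (F : Finset (Sym2 V)) (x y : V) : Prop :=
  Relation.ReflTransGen (fun u v => s(u, v) ∈ F) x y

lemma reach.refl (F : Finset (Sym2 V)) (x : V) : reach F x x := Relation.ReflTransGen.refl

lemma reach.trans {F : Finset (Sym2 V)} {x y z : V} (h : reach F x y) (h' : reach F y z) :
    reach F x z := Relation.ReflTransGen.trans h h'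

lemma reach.single {F : Finset (Sym2 V)} {x y : V} (h : s(x, y) ∈ F) : reach F x y :=
  Relation.ReflTransGen.single h

lemma reach.symm {F : Finset (Sym2 V)} {x y : V} (h : reach F x y) : reach F y x := by
  induction h with
  | refl => exact reach.refl _ _
  | tail _ h2 ih => exact (reach.single (by rwa [Sym2.eq_swap])).trans ih

lemma reach.mono {F F' : Finset (Sym2 V)} (hF : F ⊆ F') {x y : V} (h : reach F x y) :
    reach F' x y := by
  induction h with
  | refl => exact reach.refl _ _
  | tail _ h2 ih => exact ih.trans (reach.single (hF h2))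

lemma reach_erase [DecidableEq V] {F : Finset (Sym2 V)} {x y z : V} (h : reach F z x) :
    reach (F.erase s(x, y)) z x ∨ reach (F.erase s(x, y)) z y := by
  induction h using Relation.ReflTransGen.head_induction_on with
  | refl => exact Or.inl (reach.refl _ _)
  | @head u v h1 _ ih =>
    by_cases huv : s(u, v) = s(x, y)
    · rcases Sym2.eq_iff.1 huv with ⟨rfl, rfl⟩ | ⟨rfl, rfl⟩
      · exact Or.inl (reach.refl _ _)
      · exact Or.inr (reach.refl _ _)
    · have h2 : reach (F.erase s(x, y)) u v := reach.single (mem_erase.2 ⟨huv, h1⟩)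
      exact ih.imp h2.trans h2.trans

/-- all pairs of `D` are edges inside `W` -/
def Inside (W : Finset V) (D : Finset (Sym2 V)) : Prop :=
  ∀ x y, s(x, y) ∈ D → x ≠ y ∧ x ∈ W

lemma Inside.mono {W : Finset V} {D D' : Finset (Sym2 V)} (h : Inside W D) (hD : D' ⊆ D) :
    Inside W D' := fun x y hxy => h x y (hD hxy)

lemma Inside.right {W : Finset V} {D : Finset (Sym2 V)} (h : Inside W D) {x y : V}
    (hxy : s(x, y) ∈ D) : y ∈ W := (h y x (by rwa [Sym2.eq_swap])).2

lemma connected_iff_reach {S : Set V} {W : Finset V} (hS : ∀ x, x ∈ S ↔ x ∈ W)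
    {F : Finset (Sym2 V)} (hF : Inside W F)
    {K : SimpleGraph S} (hK : ∀ x y : S, K.Adj x y ↔ s(x.1, y.1) ∈ F) :
    K.Preconnected ↔ ∀ x ∈ W, ∀ y ∈ W, reach F x y := by
  constructor
  · intro h x hx y hy
    have key : ∀ u v : S, K.Reachable u v → reach F u.1 v.1 := by
      rintro u v ⟨p⟩
      induction p with
      | nil => exact reach.refl _ _
      | cons h1 _ ih => exact (reach.single ((hK _ _).1 h1)).trans ih
    exact key ⟨x, (hS x).2 hx⟩ ⟨y, (hS y).2 hy⟩ (h _ _)
  · intro h x y
    have key : ∀ (u : S) (v : V), reach F u.1 v → ∀ hv : v ∈ S, K.Reachable u ⟨v, hv⟩ := by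
      intro u v huv
      induction huv with
      | refl => intro _; rfl
      | @tail b c _ h2 ih =>
        intro hc
        have hb : b ∈ S := (hS b).2 (hF b c h2).2
        exact (ih hb).trans ((hK ⟨b, hb⟩ ⟨c, hc⟩).2 h2).reachable
    exact key x y.1 (h _ ((hS _).1 x.2) _ ((hS _).1 y.2)) y.2

lemma card_edgeSet_eq {S : Set V} {W : Finset V} (hS : ∀ x, x ∈ S ↔ x ∈ W)
    {F : Finset (Sym2 V)} (hF : Inside W F)
    {K : SimpleGraph S} (hK : ∀ x y : S, K.Adj x y ↔ s(x.1, y.1) ∈ F) :
    Nat.card K.edgeSet = F.card := by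
  have h1 : Sym2.map Subtype.val '' K.edgeSet = (F : Set (Sym2 V)) := by
    ext e
    induction e using Sym2.ind with
    | _ x y =>
      constructor
      · rintro ⟨e', he', h2⟩
        induction e' using Sym2.ind with
        | _ u v =>
          rw [← h2]
          exact (hK u v).1 he'
      · intro hxy
        exact ⟨s(⟨x, (hS x).2 (hF x y hxy).2⟩, ⟨y, (hS y).2 (hF.right hxy)⟩),
          (hK _ _).2 hxy, rfl⟩
  rw [Nat.card_coe_set_eq, ← Set.ncard_image_of_injective _
    (Sym2.map.injective Subtype.val_injective), h1, Set.ncard_coe_finset]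

lemma card_le_of_reach {W : Finset V} {F : Finset (Sym2 V)} (hF : Inside W F)
    (h : ∀ x ∈ W, ∀ y ∈ W, reach F x y) : W.card ≤ F.card + 1 := by
  rcases W.eq_empty_or_nonempty with rfl | ⟨a, ha⟩
  · simp
  let K : SimpleGraph (W : Set V) := (SimpleGraph.fromEdgeSet (F : Set (Sym2 V))).induce W
  have hK : ∀ x y : (W : Set V), K.Adj x y ↔ s(x.1, y.1) ∈ F := by
    intro x y
    simp only [K, SimpleGraph.comap_adj, Function.Embedding.coe_subtype,
      SimpleGraph.fromEdgeSet_adj, mem_coe]
    exact ⟨fun h => h.1, fun h => ⟨h, (hF _ _ h).1⟩⟩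
  have hS : ∀ x, x ∈ (W : Set V) ↔ x ∈ W := fun x => Iff.rfl
  have : Nonempty (W : Set V) := ⟨⟨a, ha⟩⟩
  have hc : K.Connected := ⟨(connected_iff_reach hS hF hK).2 h⟩
  have := hc.card_vert_le_card_edgeSet_add_one
  rw [card_edgeSet_eq hS hF hK] at this
  simpa using this

open Classical in
/-- spanning trees -/
noncomputable def trees (W : Finset V) (D : Finset (Sym2 V)) : Finset (Finset (Sym2 V)) :=
  D.powerset.filter fun T => T.card + 1 = W.card ∧ ∀ x ∈ W, ∀ y ∈ W, reach T x y

open Classical in
/-- two-component spanning forests separating `a` and `b` -/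
noncomputable def forests (W : Finset V) (D : Finset (Sym2 V)) (a b : V) :
    Finset (Finset (Sym2 V)) :=
  D.powerset.filter fun F => F.card + 2 = W.card ∧ ∀ x ∈ W, reach F x a ∨ reach F x b

lemma mem_trees {W : Finset V} {D T : Finset (Sym2 V)} :
    T ∈ trees W D ↔ T ⊆ D ∧ T.card + 1 = W.card ∧ ∀ x ∈ W, ∀ y ∈ W, reach T x y := by
  simp [trees]

lemma mem_forests {W : Finset V} {D F : Finset (Sym2 V)} {a b : V} :
    F ∈ forests W D a b ↔ F ⊆ D ∧ F.card + 2 = W.card ∧ ∀ x ∈ W, reach F x a ∨ reach F x b := by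
  simp [forests]

lemma not_reach_of_forest {W : Finset V} {D F : Finset (Sym2 V)} {a b : V} (hD : Inside W D)
    (hF : F ∈ forests W D a b) : ¬ reach F a b := by
  intro hab
  obtain ⟨h1, h2, h3⟩ := mem_forests.1 hF
  have h4 : ∀ x ∈ W, reach F x b := fun x hx => (h3 x hx).elim (fun h => h.trans hab) id
  have := card_le_of_reach (hD.mono h1) fun x hx y hy => (h4 x hx).trans (h4 y hy).symm
  omega

section dec
variable [DecidableEq V]

lemma erase_mem_forests {W : Finset V} {D T : Finset (Sym2 V)} (hD : Inside W D)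
    (hT : T ∈ trees W D) {x y : V} (hxy : s(x, y) ∈ T) : T.erase s(x, y) ∈ forests W D x y := by
  obtain ⟨h1, h2, h3⟩ := mem_trees.1 hT
  refine mem_forests.2 ⟨(erase_subset _ _).trans h1, ?_, fun z hz => ?_⟩
  · have := card_erase_add_one hxy; omega
  · exact reach_erase (h3 z hz x (hD x y (h1 hxy)).2)

lemma insert_mem_trees {W : Finset V} {D F : Finset (Sym2 V)} {a b : V}
    (hF : F ∈ forests W D a b) {x y : V} (hxy : s(x, y) ∈ D) (hxa : reach F x a)
    (hya : ¬ reach F y a) (hy : y ∈ W) : s(x, y) ∉ F ∧ insert s(x, y) F ∈ trees W D := by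
  obtain ⟨h1, h2, h3⟩ := mem_forests.1 hF
  have hn : s(x, y) ∉ F := fun h => hya ((reach.single h).symm.trans hxa)
  refine ⟨hn, mem_trees.2 ⟨insert_subset hxy h1, ?_, ?_⟩⟩
  · rw [card_insert_of_notMem hn]; omega
  · have hyb : reach F y b := (h3 y hy).resolve_left hya
    have hs : F ⊆ insert s(x, y) F := subset_insert _ _
    have key : ∀ z ∈ W, reach (insert s(x, y) F) z x := by
      intro z hz
      rcases h3 z hz with h | h
      · exact (h.trans hxa.symm).mono hs
      · exact ((h.trans hyb.symm).mono hs).trans (reach.single (mem_insert_self _ _)).symm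
    exact fun u hu v hv => (key u hu).trans (key v hv).symm

end dec

/-- bilinear form on a pair -/
def bil (α φ : V → ℝ) : Sym2 V → ℝ :=
  Sym2.lift ⟨fun x y => (α x - α y) * (φ x - φ y), fun x y => by ring⟩

@[simp] lemma bil_mk (α φ : V → ℝ) (x y : V) : bil α φ s(x, y) = (α x - α y) * (φ x - φ y) := rfl

open Classical in
/-- indicator of the component of `a` -/
noncomputable def ind (F : Finset (Sym2 V)) (a : V) (z : V) : ℝ := if reach F z a then 1 else 0

lemma ind_congr {F : Finset (Sym2 V)} {a b : V} (h : reach F a b) : ind F a = ind F b := by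
  ext z
  unfold ind
  have : reach F z a ↔ reach F z b := ⟨fun h1 => h1.trans h, fun h1 => h1.trans h.symm⟩
  by_cases hz : reach F z a
  · rw [if_pos hz, if_pos (this.1 hz)]
  · rw [if_neg hz, if_neg (mt this.2 hz)]

section dec
variable [DecidableEq V]

lemma theta_const {W : Finset V} {D T : Finset (Sym2 V)} (hD : Inside W D) (hT : T ∈ trees W D)
    (φ : V → ℝ) {u v : V} (h : reach T u v) :
    ∑ e ∈ T, bil (ind (T.erase e) u) φ e - 2 * φ u
      = ∑ e ∈ T, bil (ind (T.erase e) v) φ e - 2 * φ v := by
  induction h with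
  | refl => rfl
  | @tail b c _ h2 ih =>
    rw [ih]
    have hn := not_reach_of_forest hD (erase_mem_forests hD hT h2)
    have hn' : ¬ reach (T.erase s(b, c)) c b := fun h => hn h.symm
    rw [← add_sum_erase T _ h2, ← add_sum_erase T _ h2]
    have : ∑ e ∈ T.erase s(b, c), bil (ind (T.erase e) b) φ e
        = ∑ e ∈ T.erase s(b, c), bil (ind (T.erase e) c) φ e := by
      refine sum_congr rfl fun e he => ?_
      rw [ind_congr (reach.single (mem_erase.2 ⟨(mem_erase.1 he).1.symm, h2⟩))]
    rw [this]
    simp only [bil_mk, ind, hn, hn', reach.refl, if_true, if_false]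
    ring

lemma per_tree {W : Finset V} {D T : Finset (Sym2 V)} (hD : Inside W D) (hT : T ∈ trees W D)
    (φ : V → ℝ) {a b : V} (ha : a ∈ W) (hb : b ∈ W) :
    ∑ e ∈ T with T.erase e ∈ forests W D a b, bil (ind (T.erase e) a) φ e = φ a - φ b := by
  have h1 := theta_const hD hT φ ((mem_trees.1 hT).2.2 a ha b hb)
  have h2 : ∑ e ∈ T, bil (ind (T.erase e) a) φ e - ∑ e ∈ T, bil (ind (T.erase e) b) φ e
      = 2 * ∑ e ∈ T with T.erase e ∈ forests W D a b, bil (ind (T.erase e) a) φ e := by
    rw [sum_filter, mul_sum, ← sum_sub_distrib]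
    refine sum_congr rfl fun e he => ?_
    induction e using Sym2.ind with
    | _ x y =>
      have hF := erase_mem_forests hD hT he
      have hn := not_reach_of_forest hD hF
      obtain ⟨g1, g2, g3⟩ := mem_forests.1 hF
      by_cases hab : reach (T.erase s(x, y)) a b
      · rw [if_neg fun h => not_reach_of_forest hD h hab, ind_congr hab]; ring
      · have hx : reach (T.erase s(x, y)) x a ↔ ¬ reach (T.erase s(x, y)) y a :=
          ⟨fun h h' => hn (h.trans h'.symm),
            fun h => ((g3 a ha).resolve_right fun h' => h h'.symm).symm⟩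
        have hx' : reach (T.erase s(x, y)) x b ↔ ¬ reach (T.erase s(x, y)) y b :=
          ⟨fun h h' => hn (h.trans h'.symm),
            fun h => ((g3 b hb).resolve_right fun h' => h h'.symm).symm⟩
        have hmem : T.erase s(x, y) ∈ forests W D a b := by
          refine mem_forests.2 ⟨g1, g2, fun z hz => ?_⟩
          by_cases hxa : reach (T.erase s(x, y)) x a
          · have hyb : reach (T.erase s(x, y)) y b := by
              by_contra hyb
              exact hab (hxa.symm.trans (hx'.2 hyb))
            exact (g3 z hz).imp (fun h => h.trans hxa) fun h => h.trans hyb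
          · have hya : reach (T.erase s(x, y)) y a := by
              by_contra hya
              exact hxa (hx.2 hya)
            have hxb : reach (T.erase s(x, y)) x b :=
              hx'.2 fun hyb => hab (hya.symm.trans hyb)
            exact (g3 z hz).symm.imp (fun h => h.trans hya) fun h => h.trans hxb
        rw [if_pos hmem]
        by_cases hxa : reach (T.erase s(x, y)) x a
        · have hya := hx.1 hxa
          have hxb : ¬ reach (T.erase s(x, y)) x b := fun h => hab (hxa.symm.trans h)
          have hyb : reach (T.erase s(x, y)) y b := by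
            by_contra h; exact hxb (hx'.2 h)
          simp only [bil_mk, ind, hxa, hya, hxb, hyb, if_true, if_false]; ring
        · have hya : reach (T.erase s(x, y)) y a := by
            by_contra hya
            exact hxa (hx.2 hya)
          have hyb : ¬ reach (T.erase s(x, y)) y b := fun h => hab (hya.symm.trans h)
          have hxb := hx'.2 hyb
          simp only [bil_mk, ind, hxa, hya, hxb, hyb, if_true, if_false]; ring
  linarith

end dec

/-- weight of an edge set -/
noncomputable def wt (h : Sym2 V → ℝ) (F : Finset (Sym2 V)) : ℝ := Real.exp (∑ e ∈ F, h e)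

lemma wt_pos (h : Sym2 V → ℝ) (F : Finset (Sym2 V)) : 0 < wt h F := Real.exp_pos _

lemma main_identity {W : Finset V} {D : Finset (Sym2 V)} (hD : Inside W D) (h : Sym2 V → ℝ)
    (φ : V → ℝ) {a b : V} (ha : a ∈ W) (hb : b ∈ W) :
    ∑ F ∈ forests W D a b, wt h F * ∑ e ∈ D, Real.exp (h e) * bil (ind F a) φ e
      = (∑ T ∈ trees W D, wt h T) * (φ a - φ b) := by
  classical
  have h1 : (∑ T ∈ trees W D, wt h T) * (φ a - φ b)
      = ∑ T ∈ trees W D, ∑ e ∈ T with T.erase e ∈ forests W D a b,
          wt h T * bil (ind (T.erase e) a) φ e := by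
    rw [sum_mul]
    refine sum_congr rfl fun T hT => ?_
    rw [← mul_sum, per_tree hD hT φ ha hb]
  have h2 : ∑ F ∈ forests W D a b, wt h F * ∑ e ∈ D, Real.exp (h e) * bil (ind F a) φ e
      = ∑ F ∈ forests W D a b, ∑ e ∈ D with e ∉ F ∧ insert e F ∈ trees W D,
          wt h F * (Real.exp (h e) * bil (ind F a) φ e) := by
    refine sum_congr rfl fun F hF => ?_
    rw [mul_sum, sum_filter]
    refine sum_congr rfl fun e he => ?_
    split_ifs with hc
    · rfl
    · induction e using Sym2.ind with
      | _ x y =>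
        have he' : s(y, x) ∈ D := by rwa [Sym2.eq_swap]
        by_cases hxa : reach F x a <;> by_cases hya : reach F y a
        · simp [ind, hxa, hya]
        · exact (hc (insert_mem_trees hF he hxa hya (hD.right he))).elim
        · have := insert_mem_trees hF he' hya hxa (hD.right he')
          rw [Sym2.eq_swap] at this
          exact (hc this).elim
        · simp [ind, hxa, hya]
  rw [h1, h2, sum_sigma', sum_sigma']
  refine sum_nbij' (fun p => ⟨insert p.2 p.1, p.2⟩) (fun p => ⟨p.1.erase p.2, p.2⟩)
    ?_ ?_ ?_ ?_ ?_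
  · rintro ⟨F, e⟩ hp
    simp only [mem_sigma, mem_filter] at hp ⊢
    refine ⟨hp.2.2.2, mem_insert_self _ _, ?_⟩
    rw [erase_insert hp.2.2.1]; exact hp.1
  · rintro ⟨T, e⟩ hp
    simp only [mem_sigma, mem_filter] at hp ⊢
    refine ⟨hp.2.2, (mem_trees.1 hp.1).1 hp.2.1, notMem_erase _ _, ?_⟩
    rw [insert_erase hp.2.1]; exact hp.1
  · rintro ⟨F, e⟩ hp
    simp only [mem_sigma, mem_filter] at hp
    simp [erase_insert hp.2.2.1]
  · rintro ⟨T, e⟩ hp
    simp only [mem_sigma, mem_filter] at hp
    simp [insert_erase hp.2.1]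
  · rintro ⟨F, e⟩ hp
    simp only [mem_sigma, mem_filter] at hp
    simp only [erase_insert hp.2.2.1, wt, sum_insert hp.2.2.1, Real.exp_add]
    ring

lemma sum_forests [DecidableEq V] {W : Finset V} {D : Finset (Sym2 V)} (hD : Inside W D)
    (h : Sym2 V → ℝ) {a b : V} (hab : s(a, b) ∈ D) :
    Real.exp (h s(a, b)) * ∑ F ∈ forests W D a b, wt h F
      = ∑ T ∈ trees W D with s(a, b) ∈ T, wt h T := by
  rw [mul_sum]
  have key : ∀ F ∈ forests W D a b, s(a, b) ∉ F ∧ insert s(a, b) F ∈ trees W D := fun F hF =>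
    insert_mem_trees hF hab (reach.refl _ _) (fun h1 => not_reach_of_forest hD hF h1.symm)
      (hD.right hab)
  refine sum_nbij' (fun F => insert s(a, b) F) (fun T => T.erase s(a, b)) ?_ ?_ ?_ ?_ ?_
  · intro F hF
    exact mem_filter.2 ⟨(key F hF).2, mem_insert_self _ _⟩
  · intro T hT
    exact erase_mem_forests hD (mem_filter.1 hT).1 (mem_filter.1 hT).2
  · intro F hF
    exact erase_insert (key F hF).1
  · intro T hT
    exact insert_erase (mem_filter.1 hT).2
  · intro F hF
    simp only [wt, sum_insert (key F hF).1, Real.exp_add]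

theorem kirchhoff [DecidableEq V] {W : Finset V} {D : Finset (Sym2 V)} (hD : Inside W D)
    (hne : (trees W D).Nonempty) (h : Sym2 V → ℝ) {e : Sym2 V} (he : e ∈ D) :
    margD D h e = (∑ T ∈ trees W D with e ∈ T, wt h T) / ∑ T ∈ trees W D, wt h T := by
  induction e using Sym2.ind with
  | _ a b =>
  have ha := (hD a b he).2
  have hb := hD.right he
  have hd : ¬ (s(a, b)).IsDiag := by simpa using (hD a b he).1
  set Z := ∑ T ∈ trees W D, wt h T with hZ
  set Z0 := ∑ F ∈ forests W D a b, wt h F with hZ0
  have hZpos : 0 < Z := sum_pos (fun T _ => wt_pos h T) hne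
  have hZ0pos : 0 < Z0 := by
    refine sum_pos (fun T _ => wt_pos h T) ?_
    by_contra hemp
    rw [not_nonempty_iff_eq_empty] at hemp
    have := main_identity hD h (fun z => if z = a then 1 else 0) ha hb
    rw [hemp] at this
    simp [(hD a b he).1.symm] at this
    exact hZpos.ne this
  let gr : V → ℝ := fun z => (∑ F ∈ forests W D a b, wt h F * ind F a z) / Z0
  have hind : ∀ F z, 0 ≤ ind F a z ∧ ind F a z ≤ 1 := by
    intro F z; unfold ind; split_ifs <;> norm_num
  have hg0 : ∀ z, 0 ≤ gr z := fun z =>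
    div_nonneg (sum_nonneg fun F _ => mul_nonneg (wt_pos h F).le (hind F z).1) hZ0pos.le
  have hg1 : ∀ z, gr z ≤ 1 := fun z =>
    (div_le_one hZ0pos).2 (sum_le_sum fun F _ => mul_le_of_le_one_right (wt_pos h F).le
      (hind F z).2)
  have hga : gr a = 1 := by
    simp only [gr, ind, reach.refl, if_true, mul_one]
    exact div_self hZ0pos.ne'
  have hgb : gr b = 0 := by
    simp only [gr]
    rw [sum_eq_zero, zero_div]
    intro F hF
    have : ¬ reach F b a := fun h1 => not_reach_of_forest hD hF h1.symm
    simp [ind, this]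
  have hbil : ∀ φ : V → ℝ, ∑ e ∈ D, Real.exp (h e) * bil gr φ e = Z / Z0 * (φ a - φ b) := by
    intro φ
    have := main_identity hD h φ ha hb
    rw [div_mul_eq_mul_div, ← this, eq_div_iff hZ0pos.ne']
    simp_rw [mul_sum]
    rw [sum_comm, sum_mul]
    refine sum_congr rfl fun e _ => ?_
    induction e using Sym2.ind with
    | _ x y =>
      simp only [bil_mk, gr]
      rw [← sub_div, ← sum_sub_distrib]
      field_simp
      rw [mul_sum, sum_mul]
      refine sum_congr rfl fun F _ => by ring
  let g : V → I := fun z => ⟨gr z, hg0 z, hg1 z⟩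
  have hsq : ∀ e, sq g e = bil gr gr e := by
    intro e
    induction e using Sym2.ind with
    | _ x y => simp only [sq_mk, bil_mk, g]; ring
  have hgg : energy D h g = Z / Z0 := by
    unfold energy
    simp only [hsq]
    rw [hbil, hga, hgb]; ring
  have hc : cond D h s(a, b) = Z / Z0 := by
    refine le_antisymm ?_ (le_cond hd fun f hf => ?_)
    · rw [← hgg]
      refine cond_le D h ?_
      rw [hsq]; simp [hga, hgb]
    · have hs : ((f a : ℝ) - f b) ^ 2 = 1 := hf
      have h1 := hbil fun z => (f z : ℝ)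
      have h2 : ∑ e ∈ D, (2 * ((f a : ℝ) - f b) * (Real.exp (h e) * bil gr (fun z => (f z : ℝ)) e)
          - Real.exp (h e) * sq g e) ≤ energy D h f := by
        refine sum_le_sum fun e _ => ?_
        induction e using Sym2.ind with
        | _ x y =>
          simp only [sq_mk, bil_mk, g]
          have h3 := Real.exp_pos (h s(x, y))
          have h4 : 0 ≤ (((f a : ℝ) - f b) * ((f x : ℝ) - f y) - (gr x - gr y)) ^ 2 := sq_nonneg _
          have h5 : (((f a : ℝ) - f b) * ((f x : ℝ) - f y)) ^ 2 = ((f x : ℝ) - f y) ^ 2 := by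
            rw [mul_pow, hs, one_mul]
          nlinarith [mul_nonneg h3.le h4]
      rw [sum_sub_distrib, ← mul_sum, h1] at h2
      have h6 : ∑ e ∈ D, Real.exp (h e) * sq g e = Z / Z0 := hgg
      rw [h6] at h2
      have h7 : 2 * ((f a : ℝ) - f b) * (Z / Z0 * ((f a : ℝ) - f b)) = 2 * (Z / Z0) := by
        calc _ = 2 * (Z / Z0) * ((f a : ℝ) - f b) ^ 2 := by ring
          _ = _ := by rw [hs, mul_one]
      linarith
  unfold margD
  rw [hc, ← sum_forests hD h he, ← hZ0]
  field_simp

end Vale.Agent.P143
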