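import Vale.Agent.P143.Cond

/-! Continuity of the marginal along exhaustions. -/

namespace Vale.Agent.P143

open Filter Topology Finset unitInterval

variable {V : Type*}

lemma exists_energy_eq (D : Finset (Sym2 V)) (h : Sym2 V → ℝ) {e : Sym2 V} (he : ¬ e.IsDiag) :
    ∃ f : V → I, sq f e = 1 ∧ energy D h f ≤ cond D h e := by
  have hcl : IsClosed {f : V → I | sq f e = 1} := isClosed_eq (continuous_sq e) continuous_const
  obtain ⟨f0, hf0⟩ := nonempty_pot he
  obtain ⟨f, hf, hmin⟩ := hcl.isCompact.exists_isMinOn ⟨f0, hf0⟩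
    (continuous_energy D h).continuousOn
  exact ⟨f, hf, le_cond he fun g hg => hmin hg⟩

lemma exists_pot {G : SimpleGraph V} (h : Sym2 V → ℝ) {e : Sym2 V} (he : e ∈ G.edgeSet) {C : ℝ}
    (hC : ∀ D : Finset (Sym2 V), (↑D : Set (Sym2 V)) ⊆ G.edgeSet → e ∈ D → cond D h e ≤ C) :
    ∃ f : V → I, sq f e = 1 ∧
      ∀ D : Finset (Sym2 V), (↑D : Set (Sym2 V)) ⊆ G.edgeSet → energy D h f ≤ C := by
  classical
  have hd := G.not_isDiag_of_mem_edgeSet he
  let ι := {D : Finset (Sym2 V) // (↑D : Set (Sym2 V)) ⊆ G.edgeSet}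
  have : Nonempty ι := ⟨⟨∅, by simp⟩⟩
  let K : ι → Set (V → I) := fun D => {f | sq f e = 1 ∧ energy D.1 h f ≤ C}
  have hcl : ∀ D, IsClosed (K D) := fun D =>
    (isClosed_eq (continuous_sq e) continuous_const).inter
      (isClosed_le (continuous_energy D.1 h) continuous_const)
  have hne : ∀ D, (K D).Nonempty := by
    intro D
    obtain ⟨f, hf, hle⟩ := exists_energy_eq (insert e D.1) h hd
    refine ⟨f, hf, (energy_mono (subset_insert _ _) h f).trans (hle.trans (hC _ ?_ ?_))⟩
    · rw [coe_insert]; exact Set.insert_subset he D.2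
    · exact mem_insert_self _ _
  have hdir : Directed (· ⊇ ·) K := by
    intro D D'
    refine ⟨⟨D.1 ∪ D'.1, ?_⟩, ?_, ?_⟩
    · rw [coe_union]; exact Set.union_subset D.2 D'.2
    · intro f hf; exact ⟨hf.1, (energy_mono subset_union_left h f).trans hf.2⟩
    · intro f hf; exact ⟨hf.1, (energy_mono subset_union_right h f).trans hf.2⟩
  obtain ⟨f, hf⟩ := IsCompact.nonempty_iInter_of_directed_nonempty_isCompact_isClosed K hdir hne
    (fun D => (hcl D).isCompact) hcl
  rw [Set.mem_iInter] at hf
  exact ⟨f, (hf ⟨∅, by simp⟩).1, fun D hD => (hf ⟨D, hD⟩).2⟩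

theorem tendsto_marg {G : SimpleGraph V} {H : ℕ → SimpleGraph V} (hHG : ∀ n, H n ≤ G)
    (hev : ∀ e ∈ G.edgeSet, ∀ᶠ n in atTop, e ∈ (H n).edgeSet)
    {hn : ℕ → Sym2 V → ℝ} {h : Sym2 V → ℝ} {B : ℝ} (hB : ∀ n e, |hn n e| ≤ B)
    (hB' : ∀ e, |h e| ≤ B) (hlim : ∀ e, Tendsto (fun n => hn n e) atTop (𝓝 (h e)))
    (e : Sym2 V) : Tendsto (fun n => marg (H n) (hn n) e) atTop (𝓝 (marg G h e)) := by
  classical
  by_cases he : e ∈ G.edgeSet
  swap
  · rw [marg_of_not_mem h he]
    have : ∀ n, marg (H n) (hn n) e = 0 := fun n =>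
      marg_of_not_mem _ fun h1 => he (SimpleGraph.edgeSet_mono (hHG n) h1)
    simp only [this]; exact tendsto_const_nhds
  have hd := G.not_isDiag_of_mem_edgeSet he
  have hlim' : Tendsto hn atTop (𝓝 h) := tendsto_pi_nhds.2 hlim
  refine tendsto_order.2 ⟨fun a ha => ?_, fun b hb => ?_⟩
  · -- lower bound
    rcases lt_or_ge a 0 with ha0 | ha0
    · exact Eventually.of_forall fun n => ha0.trans_le (marg_nonneg _ _ _)
    have hM : 0 < marg G h e := ha0.trans_lt ha
    obtain ⟨f, hf, hfC⟩ := exists_pot h he (C := Real.exp (h e) / marg G h e) (by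
      intro D hD heD
      have h1 := marg_le_margD h hD heD
      have h2 := cond_pos h hd heD
      rw [le_div_iff₀ hM]
      unfold margD at h1
      rw [le_div_iff₀ h2] at h1
      linarith)
    let F : (Sym2 V → ℝ) → Sym2 V → ℝ := fun k e' =>
      if e' ∈ G.edgeSet then Real.exp (k e') * sq f e' else 0
    have hF0 : ∀ k e', 0 ≤ F k e' := by
      intro k e'
      simp only [F]
      split_ifs
      · exact mul_nonneg (Real.exp_pos _).le (sq_nonneg' _ _)
      · exact le_rfl
    have hFsum : ∀ s : Finset (Sym2 V), ∑ e' ∈ s, F h e' ≤ Real.exp (h e) / marg G h e := by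
      intro s
      simp only [F]
      rw [← sum_filter]
      exact hfC _ (by intro x hx; exact (mem_filter.1 hx).2)
    have hsum : Summable (F h) := summable_of_sum_le (hF0 h) hFsum
    have hS : ∑' e', F h e' ≤ Real.exp (h e) / marg G h e := hsum.tsum_le_of_sum_le hFsum
    have hbd : ∀ n e', ‖F (hn n) e'‖ ≤ Real.exp (2 * B) * F h e' := by
      intro n e'
      rw [Real.norm_of_nonneg (hF0 _ _)]
      simp only [F]
      split_ifs
      · rw [← mul_assoc, ← Real.exp_add]
        refine mul_le_mul_of_nonneg_right (Real.exp_le_exp.2 ?_) (sq_nonneg' _ _)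
        have := abs_le.1 (hB n e')
        have := abs_le.1 (hB' e')
        linarith
      · simp
    have hsumn : ∀ n, Summable (F (hn n)) := fun n =>
      Summable.of_norm_bounded (hsum.mul_left _) (hbd n)
    have hT : Tendsto (fun n => ∑' e', F (hn n) e') atTop (𝓝 (∑' e', F h e')) := by
      refine tendsto_tsum_of_dominated_convergence (hsum.mul_left (Real.exp (2 * B))) ?_
        (Eventually.of_forall hbd)
      intro e'
      simp only [F]
      split_ifs
      · exact ((Real.continuous_exp.tendsto _).comp (hlim e')).mul_const _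
      · exact tendsto_const_nhds
    have hterm : ∀ k, Summable (F k) → Real.exp (k e) ≤ ∑' e', F k e' := by
      intro k hk
      have := hk.le_tsum e (fun e' _ => hF0 k e')
      simpa [F, he, hf] using this
    have hSpos : 0 < ∑' e', F h e' := (Real.exp_pos _).trans_le (hterm h hsum)
    have hT2 : Tendsto (fun n => Real.exp (hn n e) / ∑' e', F (hn n) e') atTop
        (𝓝 (Real.exp (h e) / ∑' e', F h e')) :=
      ((Real.continuous_exp.tendsto _).comp (hlim e)).div hT hSpos.ne'
    have hlt : a < Real.exp (h e) / ∑' e', F h e' := by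
      refine ha.trans_le ?_
      rw [le_div_iff₀ hSpos]
      rw [le_div_iff₀ hM] at hS
      linarith
    filter_upwards [hev e he, hT2.eventually (lt_mem_nhds hlt)] with n h1 h2
    refine h2.trans_le ?_
    have hSn : 0 < ∑' e', F (hn n) e' := (Real.exp_pos _).trans_le (hterm _ (hsumn n))
    refine le_marg h1 ((div_le_one hSn).2 (hterm _ (hsumn n))) fun D hD heD => ?_
    refine div_le_div_of_nonneg_left (Real.exp_pos _).le (cond_pos _ hd heD) ?_
    refine (cond_le D _ hf).trans ?_
    refine le_trans (le_of_eq ?_) ((hsumn n).sum_le_tsum D fun e' _ => hF0 _ e')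
    unfold energy
    refine sum_congr rfl fun e' he' => ?_
    simp only [F]
    rw [if_pos (SimpleGraph.edgeSet_mono (hHG n) (hD he'))]
  · -- upper bound
    have hb' := hb
    unfold marg at hb'
    rw [if_pos he] at hb'
    obtain ⟨D, hD⟩ := exists_lt_of_ciInf_lt hb'
    unfold margT at hD
    split_ifs at hD with hD'
    · have h1 : ∀ᶠ n in atTop, ∀ e' ∈ D, e' ∈ (H n).edgeSet :=
        (eventually_all_finset D).2 fun e' he' => hev e' (hD'.1 he')
      have h2 := ((continuous_margD D hd hD'.2).tendsto h).comp hlim'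
      filter_upwards [h1, h2.eventually (gt_mem_nhds hD)] with n h3 h4
      exact (marg_le_margD _ (fun e' he' => h3 e' he') hD'.2).trans_lt h4
    · exact Eventually.of_forall fun n => (marg_le_one _ _ _).trans_lt hD

end Vale.Agent.P143
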