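import Vale.Agent.P143.Fin

/-! Independent edge noise from independent vertex labels. -/

namespace Vale.Agent.P143

open MeasureTheory Measure unitInterval

variable {V : Type*}

/-- a measurable map turning one uniform variable into an i.i.d. Laplace sequence -/
noncomputable def psi : I → ℕ → ℝ :=
  Classical.choose (Measure.exists_measurable_map_eq (infinitePi fun _ : ℕ => lap))

lemma measurable_psi : Measurable psi :=
  (Classical.choose_spec (Measure.exists_measurable_map_eq (infinitePi fun _ : ℕ => lap))).1

lemma map_psi : volume.map psi = infinitePi fun _ : ℕ => lap :=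
  (Classical.choose_spec (Measure.exists_measurable_map_eq (infinitePi fun _ : ℕ => lap))).2

/-- rank of `u` among the neighbours of `v` -/
noncomputable def rank (G : SimpleGraph V) (o : V → ℝ) (v u : V) : ℕ :=
  Set.ncard {w | G.Adj v w ∧ o w < o u}

/-- contribution of `v` to the pair `u v` -/
noncomputable def half (G : SimpleGraph V) (o : V → ℝ) (a : V × ℕ → ℝ) (u v : V) : ℝ :=
  if o u < o v then a (v, rank G o v u) else 0

/-- edge noise from order variables and value variables -/
noncomputable def noiseP (G : SimpleGraph V) (o : V → ℝ) (a : V × ℕ → ℝ) : Sym2 V → ℝ :=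
  Sym2.lift ⟨fun u v => half G o a u v + half G o a v u, fun _ _ => add_comm _ _⟩

/-- edge noise -/
noncomputable def noise (G : SimpleGraph V) (U : V → I) : Sym2 V → ℝ :=
  noiseP G (fun v => psi (U v) 0) fun p => psi (U p.1) (2 * p.2 + 1)

lemma measurable_half [Countable V] (u v : V) :
    Measurable fun p : SimpleGraph V × (V → ℝ) × (V × ℕ → ℝ) => half p.1 p.2.1 p.2.2 u v := by
  have hlt : ∀ x y : V, MeasurableSet
      {p : SimpleGraph V × (V → ℝ) × (V × ℕ → ℝ) | p.2.1 x < p.2.1 y} := fun x y =>
    measurableSet_lt (by fun_prop) (by fun_prop)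
  have hr : Measurable fun p : SimpleGraph V × (V → ℝ) × (V × ℕ → ℝ) => rank p.1 p.2.1 v u := by
    refine measurable_ncard.comp (measurable_set_iff.2 fun w => ?_)
    refine Measurable.and ?_ (measurableSet_setOfPred.1 (hlt w u))
    have : Measurable fun G : SimpleGraph V => G.Adj v w := by fun_prop
    exact this.comp measurable_fst
  have ha : Measurable fun q : (V × ℕ → ℝ) × ℕ => q.1 (v, q.2) :=
    measurable_from_prod_countable_left fun n => measurable_pi_apply (v, n)
  exact Measurable.ite (hlt u v) (ha.comp ((measurable_snd.comp measurable_snd).prodMk hr))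
    measurable_const

lemma measurable_noiseP [Countable V] :
    Measurable fun p : SimpleGraph V × (V → ℝ) × (V × ℕ → ℝ) => noiseP p.1 p.2.1 p.2.2 := by
  refine measurable_pi_lambda _ fun e => ?_
  induction e using Sym2.ind with
  | _ u v => exact (measurable_half u v).add (measurable_half v u)

lemma measurable_noise [Countable V] :
    Measurable fun p : SimpleGraph V × (V → I) => noise p.1 p.2 := by
  have h := measurable_psi
  refine measurable_noiseP.comp (f := fun p : SimpleGraph V × (V → I) =>
    (p.1, fun v => psi (p.2 v) 0, fun q : V × ℕ => psi (p.2 q.1) (2 * q.2 + 1))) ?_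
  fun_prop

lemma noise_map {W : Type*} {G : SimpleGraph V} {G' : SimpleGraph W} (φ : G ≃g G')
    (U : V → I) (U' : W → I) (hU : ∀ v, U' (φ v) = U v) (e : Sym2 V) :
    noise G' U' (e.map φ) = noise G U e := by
  have hr : ∀ v u, rank G' (fun v => psi (U' v) 0) (φ v) (φ u)
      = rank G (fun v => psi (U v) 0) v u := by
    intro v u
    unfold rank
    rw [← Set.ncard_image_of_injective _ φ.injective]
    congr 1
    ext w
    obtain ⟨w, rfl⟩ := φ.surjective w
    rw [φ.injective.mem_set_image]
    simp [hU, φ.map_adj_iff]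
  induction e using Sym2.ind with
  | _ u v => simp [noise, noiseP, half, hr, hU]

lemma rank_lt {G : SimpleGraph V} (o : V → ℝ) {v u u' : V} (hv : (G.neighborSet v).Finite)
    (hu : G.Adj v u) (h : o u < o u') : rank G o v u < rank G o v u' := by
  refine Set.ncard_lt_ncard ⟨fun w hw => ⟨hw.1, hw.2.trans h⟩, fun hs => ?_⟩
    (hv.subset fun w hw => hw.1)
  exact lt_irrefl _ (hs (a := u) ⟨hu, h⟩).2

lemma map_noiseP {G : SimpleGraph V} (hG : ∀ v, (G.neighborSet v).Finite) {D : Finset (Sym2 V)}
    (hD : (↑D : Set (Sym2 V)) ⊆ G.edgeSet) {o : V → ℝ} (ho : Function.Injective o) :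
    (infinitePi fun _ : V × ℕ => lap).map (fun a (i : D) => noiseP G o a i)
      = Measure.pi fun _ : D => lap := by
  have h1 : ∀ i : D, ∃ u v, i.1 = s(u, v) ∧ G.Adj v u ∧ o u < o v := by
    rintro ⟨e, he⟩
    induction e using Sym2.ind with
    | _ u v =>
      have hadj : G.Adj u v := hD he
      rcases lt_or_gt_of_ne (ho.ne hadj.ne) with h | h
      · exact ⟨u, v, rfl, hadj.symm, h⟩
      · exact ⟨v, u, Sym2.eq_swap, hadj, h⟩
  choose u v he hadj hlt using h1
  have hinj : Function.Injective fun i : D => (v i, rank G o (v i) (u i)) := by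
    intro i j hij
    simp only [Prod.mk.injEq] at hij
    obtain ⟨h1, h2⟩ := hij
    have h3 : u i = u j := by
      by_contra hne
      rcases lt_or_gt_of_ne (ho.ne hne) with h | h
      · have := rank_lt o (hG (v i)) (hadj i) h
        rw [h2, h1] at this; exact lt_irrefl _ this
      · have := rank_lt o (hG (v j)) (hadj j) h
        rw [← h2, h1] at this; exact lt_irrefl _ this
    exact Subtype.ext (by rw [he i, he j, h1, h3])
  have h4 : (fun (a : V × ℕ → ℝ) (i : D) => noiseP G o a i)
      = fun a i => a (v i, rank G o (v i) (u i)) := by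
    ext a i
    rw [he i]
    simp [noiseP, half, hlt i, (hlt i).le]
  rw [h4, map_infinitePi_infinitePi_of_inj hinj, infinitePi_eq_pi]

lemma map_split :
    (infinitePi fun _ : V => (volume : Measure I)).map (fun U =>
      ((fun p : V × ℕ => psi (U p.1) (2 * p.2)), fun p : V × ℕ => psi (U p.1) (2 * p.2 + 1)))
      = (infinitePi fun _ : V × ℕ => lap).prod (infinitePi fun _ : V × ℕ => lap) := by
  have hψ := measurable_psi
  have h1 : (infinitePi fun _ : V => (volume : Measure I)).map (fun U v => psi (U v))
      = infinitePi fun _ : V => infinitePi fun _ : ℕ => lap := by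
    rw [infinitePi_map_pi (f := fun _ => psi) _ fun _ => hψ, map_psi]
  have h2 := infinitePi_map_curry_symm (fun (_ : V) (_ : ℕ) => lap)
  let F : Bool × (V × ℕ) → V × ℕ := fun q => (q.2.1, 2 * q.2.2 + q.1.toNat)
  have hF : Function.Injective F := by
    rintro ⟨b, v, n⟩ ⟨b', v', n'⟩ h
    simp only [F, Prod.mk.injEq] at h
    obtain ⟨rfl, h⟩ := h
    cases b <;> cases b' <;> simp at h ⊢ <;> omega
  have h3 := map_infinitePi_infinitePi_of_inj (P := fun _ : V × ℕ => lap) hF
  have h4 := infinitePi_map_curry (fun (_ : Bool) (_ : V × ℕ) => lap)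
  have h5 := infinitePi_map_eval_prod (P := fun _ : Bool => infinitePi fun _ : V × ℕ => lap)
    (i := false) (j := true) (by simp)
  rw [← h5, ← h4, ← h3, ← h2, ← h1, map_map, map_map, map_map, map_map]
  · rfl
  all_goals fun_prop

lemma ae_injective [Countable V] :
    ∀ᵐ o ∂(infinitePi fun _ : V × ℕ => lap), Function.Injective fun v : V => o (v, 0) := by
  have key : ∀ u v : V, ∀ᵐ o ∂(infinitePi fun _ : V × ℕ => lap), o (u, 0) = o (v, 0) → u = v := by
    intro u v
    by_cases huv : u = v
    · exact ae_of_all _ fun _ _ => huv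
    have h1 := infinitePi_map_eval_prod (P := fun _ : V × ℕ => lap) (i := (u, 0)) (j := (v, 0))
      (by simpa using huv)
    have hm : MeasurableSet {p : ℝ × ℝ | p.1 = p.2} := measurableSet_eq_fun measurable_fst
      measurable_snd
    have h2 : (lap.prod lap) {p : ℝ × ℝ | p.1 = p.2} = 0 := by
      rw [prod_apply hm]
      have : ∀ x : ℝ, Prod.mk x ⁻¹' {p : ℝ × ℝ | p.1 = p.2} = {x} := by
        intro x; ext y; simp [eq_comm]
      simp [this]
    rw [← h1, map_apply (by fun_prop) hm] at h2
    filter_upwards [measure_eq_zero_iff_ae_notMem.1 h2] with o ho h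
    exact (ho h).elim
  filter_upwards [ae_all_iff.2 fun u => ae_all_iff.2 (key u)] with o ho u v h
  exact ho u v h

theorem map_noise [Countable V] {G : SimpleGraph V} (hG : ∀ v, (G.neighborSet v).Finite)
    {D : Finset (Sym2 V)} (hD : (↑D : Set (Sym2 V)) ⊆ G.edgeSet) :
    (infinitePi fun _ : V => (volume : Measure I)).map (fun U (i : D) => noise G U i)
      = Measure.pi fun _ : D => lap := by
  have hψ := measurable_psi
  let F : (V × ℕ → ℝ) × (V × ℕ → ℝ) → D → ℝ := fun p i => noiseP G (fun v => p.1 (v, 0)) p.2 i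
  have hF : Measurable F := by
    refine measurable_pi_lambda _ fun i => (measurable_pi_apply i.1).comp ?_
    exact measurable_noiseP.comp (f := fun p : (V × ℕ → ℝ) × (V × ℕ → ℝ) =>
      (G, fun v => p.1 (v, 0), p.2)) (by fun_prop)
  have h1 : (fun (U : V → I) (i : D) => noise G U i) = F ∘ fun U =>
      ((fun p : V × ℕ => psi (U p.1) (2 * p.2)), fun p : V × ℕ => psi (U p.1) (2 * p.2 + 1)) := rfl
  rw [h1, ← map_map hF (by fun_prop), map_split]
  ext s hs
  rw [map_apply hF hs, prod_apply (hF hs)]
  have h2 : ∀ᵐ o ∂(infinitePi fun _ : V × ℕ => lap),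
      (infinitePi fun _ : V × ℕ => lap) (Prod.mk o ⁻¹' (F ⁻¹' s))
        = (Measure.pi fun _ : D => lap) s := by
    filter_upwards [ae_injective (V := V)] with o ho
    rw [← map_noiseP hG hD ho]
    exact (map_apply (hF.comp measurable_prodMk_left) hs).symm
  rw [lintegral_congr_ae h2]
  simp

end Vale.Agent.P143
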