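import Vale.Agent.P143.Euler
import Vale.Agent.P143.Kirch
import Vale.Agent.P143.Noise

/-! The factor map and convergence of cylinder probabilities. -/

namespace Vale.Agent.P143

open MeasureTheory Measure Filter Topology Finset unitInterval

variable {V : Type*}

open Classical in
/-- indicator vector of an edge set -/
noncomputable def sig (D : Finset (Sym2 V)) (T : Finset (Sym2 V)) (i : D) : ℝ :=
  if i.1 ∈ T then 1 else 0

lemma sig_mem (D T : Finset (Sym2 V)) (i : D) : 0 ≤ sig D T i ∧ sig D T i ≤ 1 := by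
  unfold sig; split_ifs <;> norm_num

lemma lik_eq {D T : Finset (Sym2 V)} (hT : T ⊆ D) (t : ℝ) (y : Sym2 V → ℝ) :
    lik (sig D) t T (fun i => y i) = (∏ i : D, phi (y i)) * wt (fun e => ell t (y e)) T := by
  classical
  have h1 : ∑ e ∈ T, ell t (y e) = ∑ i : D, if i.1 ∈ T then ell t (y i) else 0 := by
    rw [sum_coe_sort D (fun e => if e ∈ T then ell t (y e) else 0), ← sum_filter]
    congr 1
    ext e
    simp only [mem_filter]
    exact ⟨fun h => ⟨hT h, h⟩, fun h => h.2⟩
  unfold lik wt
  rw [h1, Real.exp_sum, ← prod_mul_distrib]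
  refine prod_congr rfl fun i _ => ?_
  unfold sig
  split_ifs
  · unfold phi ell
    rw [mul_one, div_mul_eq_mul_div, ← Real.exp_add]
    congr 2; ring
  · simp

lemma pm_eq {H : SimpleGraph V} {W : Finset V} {D : Finset (Sym2 V)}
    (hD : (↑D : Set (Sym2 V)) = H.edgeSet) (hI : Inside W D) (hne : (trees W D).Nonempty)
    (t : ℝ) (y : Sym2 V → ℝ) (i : D) :
    pm (trees W D) (sig D) t (fun i => y i) i = vel H t y i := by
  classical
  unfold vel
  rw [marg_eq_margD _ hD i.2, kirchhoff hI hne _ i.2, pm, sum_filter, sum_div]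
  refine sum_congr rfl fun T hT => ?_
  have hp : 0 < ∏ i : D, phi (y i) := prod_pos fun _ _ => phi_pos _
  have hs : ∑ s' ∈ trees W D, lik (sig D) t s' (fun i => y i)
      = (∏ i : D, phi (y i)) * ∑ s' ∈ trees W D, wt (fun e => ell t (y e)) s' := by
    rw [mul_sum]
    exact sum_congr rfl fun s hs => lik_eq (mem_trees.1 hs).1 t y
  unfold post
  rw [hs, lik_eq (mem_trees.1 hT).1, mul_div_mul_left _ _ hp.ne']
  unfold sig
  split_ifs <;> simp

lemma pm_lip {H : SimpleGraph V} {W : Finset V} {D : Finset (Sym2 V)}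
    (hD : (↑D : Set (Sym2 V)) = H.edgeSet) (hI : Inside W D) (hne : (trees W D).Nonempty)
    (t : ℝ) (x y : D → ℝ) (d : ℝ) (hd : 0 ≤ d) (hxy : ∀ i, |x i - y i| ≤ d) (i : D) :
    |pm (trees W D) (sig D) t x i - pm (trees W D) (sig D) t y i| ≤ 4 * d := by
  classical
  let x' : Sym2 V → ℝ := fun e => if h : e ∈ D then x ⟨e, h⟩ else 0
  let y' : Sym2 V → ℝ := fun e => if h : e ∈ D then y ⟨e, h⟩ else 0
  have hx : x = fun i : D => x' i := by ext i; simp [x']
  have hy : y = fun i : D => y' i := by ext i; simp [y']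
  rw [hx, hy, pm_eq hD hI hne, pm_eq hD hI hne]
  have := vel_lip H (x := x') (y := y') hd (fun e he => by
    have he' : e ∈ D := by rw [← hD] at he; exact he
    simpa [x', y', he'] using hxy ⟨e, he'⟩) t t i
  simpa using this

lemma eulF_eq {H : SimpleGraph V} {W : Finset V} {D : Finset (Sym2 V)}
    (hD : (↑D : Set (Sym2 V)) = H.edgeSet) (hI : Inside W D) (hne : (trees W D).Nonempty)
    (δ : ℝ) (ξ : Sym2 V → ℝ) (j : ℕ) :
    eulF (trees W D) (sig D) δ (fun i => ξ i) j = fun i : D => eul H δ ξ j i := by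
  induction j with
  | zero => rfl
  | succ j ih =>
    ext i
    rw [eulF, ih]
    simp only []
    rw [pm_eq hD hI hne, eul_succ]

/-- signed distance to the end point selected by `b` -/
def sd (T : ℝ) (b : Bool) (x : ℝ) : ℝ := if b then T - x else x

lemma sd_le {T : ℝ} {b : Bool} {x y d : ℝ} (h : |x - y| ≤ d) : sd T b y ≤ sd T b x + d := by
  rw [abs_le] at h
  cases b <;> simp only [sd, if_true, Bool.false_eq_true, if_false] <;> linarith [h.1, h.2]

lemma continuous_sd (T : ℝ) (b : Bool) : Continuous (sd T b) := by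
  cases b
  · exact continuous_id
  · exact continuous_const.sub continuous_id

/-- i.i.d. uniform labels -/
noncomputable abbrev iid (V : Type*) : Measure (V → I) := infinitePi fun _ : V => volume

/-- the event that the level-`k` scheme on `H` is close to the pattern `β` on `B` -/
def Ev (G H : SimpleGraph V) (B : Finset (Sym2 V)) (β : Sym2 V → Bool) (k T : ℕ) (K : ℝ) :
    Set (V → I) := {U | ∀ e ∈ B, sd T (β e) (X H (noise G U) k T e) ≤ K}

lemma measurable_X [Countable V] (k T : ℕ) (e : Sym2 V) :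
    Measurable fun p : SimpleGraph V × SimpleGraph V × (V → I) =>
      X p.2.1 (noise p.1 p.2.2) k T e := by
  refine (measurable_pi_apply e).comp ((measurable_eul _ _).comp
    (f := fun p : SimpleGraph V × SimpleGraph V × (V → I) => (p.2.1, noise p.1 p.2.2)) ?_)
  exact (measurable_fst.comp measurable_snd).prodMk (measurable_noise.comp
    (f := fun p : SimpleGraph V × SimpleGraph V × (V → I) => (p.1, p.2.2)) (by fun_prop))

lemma measurableSet_Ev [Countable V] (G H : SimpleGraph V) (B : Finset (Sym2 V))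
    (β : Sym2 V → Bool) (k T : ℕ) (K : ℝ) : MeasurableSet (Ev G H B β k T K) := by
  have : Ev G H B β k T K = ⋂ e ∈ B, {U | sd T (β e) (X H (noise G U) k T e) ≤ K} := by
    ext U; simp [Ev]
  rw [this]
  refine B.measurableSet_biInter fun e _ => measurableSet_le ?_ measurable_const
  exact (continuous_sd _ _).measurable.comp ((measurable_X k T e).comp
    (f := fun U : V → I => (G, H, U)) (by fun_prop))

lemma err_tendsto (n T : ℕ) : Tendsto (fun k : ℕ => (1 + 24 * (n : ℝ) * (1 / 2 ^ k)) ^ (T * 2 ^ k)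
    * (((T * 2 ^ k : ℕ) : ℝ) * ((1 / 2 ^ k) ^ 2 * n))) atTop (𝓝 0) := by
  have h0 : Tendsto (fun k : ℕ => Real.exp (24 * n * T) * (T * n) * (1 / 2 : ℝ) ^ k) atTop
      (𝓝 0) := by
    simpa using (tendsto_pow_atTop_nhds_zero_of_lt_one (r := (1 / 2 : ℝ)) (by norm_num)
      (by norm_num)).const_mul (Real.exp (24 * n * T) * (T * n))
  refine squeeze_zero (fun k => by positivity) (fun k => ?_) h0
  have h3 : (1 + 24 * (n : ℝ) * (1 / 2 ^ k)) ^ (T * 2 ^ k) ≤ Real.exp (24 * n * T) := by
    calc _ ≤ (Real.exp (24 * (n : ℝ) * (1 / 2 ^ k))) ^ (T * 2 ^ k) := by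
          gcongr
          linarith [Real.add_one_le_exp (24 * (n : ℝ) * (1 / 2 ^ k))]
      _ = _ := by
          rw [← Real.exp_nat_mul]; congr 1; push_cast; field_simp
  have h4 : ((T * 2 ^ k : ℕ) : ℝ) * ((1 / 2 ^ k) ^ 2 * n) = (T * n) * (1 / 2 : ℝ) ^ k := by
    push_cast; rw [one_div_pow, one_div_pow]; field_simp
  rw [h4, ← mul_assoc]
  gcongr

open Classical in
/-- proportion of spanning trees with pattern `β` on `B` -/
noncomputable def ratio (W : Finset V) (D B : Finset (Sym2 V)) (β : Sym2 V → Bool) : ℝ :=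
  ((trees W D).filter fun T => ∀ e ∈ B, decide (e ∈ T) = β e).card / (trees W D).card

lemma tail_le (D B : Finset (Sym2 V)) (K : ℝ) :
    1 - B.card * lap.real {y | K < |y|}
      ≤ (Measure.pi fun _ : D => lap).real {x | ∀ i : D, i.1 ∈ B → |x i| ≤ K} := by
  classical
  set P := Measure.pi fun _ : D => lap with hP
  have hm : MeasurableSet {y : ℝ | K < |y|} := measurableSet_lt measurable_const (by fun_prop)
  have h1 : {x : D → ℝ | ∀ i : D, i.1 ∈ B → |x i| ≤ K}ᶜ
      = ⋃ i ∈ univ.filter fun i : D => i.1 ∈ B, {x : D → ℝ | K < |x i|} := by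
    ext x; simp
  have h2 : P.real {x : D → ℝ | ∀ i : D, i.1 ∈ B → |x i| ≤ K}ᶜ
      ≤ B.card * lap.real {y | K < |y|} := by
    rw [h1]
    refine (measureReal_biUnion_finset_le _ _).trans ?_
    have h3 : ∀ i : D, P.real {x : D → ℝ | K < |x i|} = lap.real {y | K < |y|} := fun i =>
      (measurePreserving_eval (fun _ : D => lap) i).measureReal_preimage hm.nullMeasurableSet
    simp only [h3, sum_const, nsmul_eq_mul]
    refine mul_le_mul_of_nonneg_right ?_ measureReal_nonneg
    exact_mod_cast card_le_card_of_injOn (fun i : D => i.1) (fun i hi => by simpa using hi)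
      Subtype.val_injective.injOn
  have h4 : P.real Set.univ ≤ P.real {x : D → ℝ | ∀ i : D, i.1 ∈ B → |x i| ≤ K}
      + P.real {x : D → ℝ | ∀ i : D, i.1 ∈ B → |x i| ≤ K}ᶜ := by
    rw [← Set.union_compl_self {x : D → ℝ | ∀ i : D, i.1 ∈ B → |x i| ≤ K}]
    exact measureReal_union_le _ _
  rw [probReal_univ] at h4
  linarith

lemma stepA [Countable V] {G H : SimpleGraph V} (hG : ∀ v, (G.neighborSet v).Finite) (hHG : H ≤ G)
    {W : Finset V} {D : Finset (Sym2 V)} (hD : (↑D : Set (Sym2 V)) = H.edgeSet) (hI : Inside W D)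
    (hne : (trees W D).Nonempty) {B : Finset (Sym2 V)} (hB : B ⊆ D) (β : Sym2 V → Bool)
    (T k0 : ℕ) (hk0 : ∀ k, k0 ≤ k → ∀ (ξ : Sym2 V → ℝ) (e : Sym2 V),
      |X H ξ k T e - X H ξ k0 T e| ≤ 1) (K : ℝ) :
    ratio W D B β ≤ (iid V).real (Ev G H B β k0 T (K + 2)) + B.card * lap.real {y | K < |y|} := by
  classical
  set P := Measure.pi fun _ : D => lap with hP
  set ε := B.card * lap.real {y | K < |y|} with hε
  have hε0 : 0 ≤ ε := by positivity
  let A : ℝ → Set (D → ℝ) := fun K => {x | ∀ i : D, i.1 ∈ B → sd T (β i) (x i) ≤ K}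
  have hA : ∀ K, MeasurableSet (A K) := by
    intro K
    have : A K = ⋂ i : D, ⋂ _ : i.1 ∈ B, {x | sd T (β i) (x i) ≤ K} := by ext x; simp [A]
    rw [this]
    exact MeasurableSet.iInter fun i => MeasurableSet.iInter fun _ => measurableSet_le
      ((continuous_sd _ _).measurable.comp (measurable_pi_apply i)) measurable_const
  have hS : (0 : ℝ) < (trees W D).card := by exact_mod_cast hne.card_pos
  have hr1 : ratio W D B β ≤ 1 := (div_le_one hS).2 (by exact_mod_cast card_filter_le _ _)
  have hDG : (↑D : Set (Sym2 V)) ⊆ G.edgeSet := hD ▸ SimpleGraph.edgeSet_mono hHG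
  have key : ∀ k, k0 ≤ k → ratio W D B β * (1 - ε) ≤ (iid V).real (Ev G H B β k0 T (K + 2))
      + (1 + 24 * (Fintype.card D : ℝ) * (1 / 2 ^ k)) ^ (T * 2 ^ k)
        * (((T * 2 ^ k : ℕ) : ℝ) * ((1 / 2 ^ k) ^ 2 * Fintype.card D)) := by
    intro k hk
    have h1 := fin_exact (sig D) hne (sig_mem D) (pm_lip hD hI hne) (δ := 1 / 2 ^ k)
      (by positivity) ((div_le_one (by positivity)).2 (one_le_pow₀ one_le_two)) (T * 2 ^ k)
      (hA K) (hA (K + 1)) (fun x hx y hxy i hi => (sd_le (hxy i)).trans (by linarith [hx i hi]))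
    have h2 : ((T * 2 ^ k : ℕ) : ℝ) * (1 / 2 ^ k) = T := by push_cast; field_simp
    rw [h2, ← hP] at h1
    have h3 : P.real {x | eulF (trees W D) (sig D) (1 / 2 ^ k) x (T * 2 ^ k) ∈ A (K + 1)}
        ≤ (iid V).real (Ev G H B β k0 T (K + 2)) := by
      have hm : Measurable fun (U : V → I) (i : D) => noise G U i :=
        measurable_pi_lambda _ fun i => (measurable_pi_apply i.1).comp
          (measurable_noise.comp (f := fun U : V → I => (G, U)) (by fun_prop))
      have hm2 : MeasurableSet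
          {x | eulF (trees W D) (sig D) (1 / 2 ^ k) x (T * 2 ^ k) ∈ A (K + 1)} :=
        (hA _).preimage (continuous_eulF _ hne _ _).measurable
      rw [hP, ← map_noise hG hDG, map_measureReal_apply hm hm2]
      refine measureReal_mono fun U hU e he => ?_
      simp only [Set.mem_preimage, Set.mem_ofPred_eq, eulF_eq hD hI hne] at hU
      have := hU ⟨e, hB he⟩ he
      have h4 := sd_le (T := T) (b := β e) (hk0 k hk (noise G U) e)
      unfold X at h4 ⊢
      linarith
    have h5 : (((trees W D).filter fun T => ∀ e ∈ B, decide (e ∈ T) = β e).card : ℝ) * (1 - ε)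
        ≤ ∑ s ∈ trees W D, P.real {x | (fun i => x i + T * sig D s i) ∈ A K} := by
      refine le_trans ?_ (sum_le_sum_of_subset_of_nonneg (filter_subset
        (fun T => ∀ e ∈ B, decide (e ∈ T) = β e) _) fun _ _ _ => measureReal_nonneg)
      rw [← nsmul_eq_mul]
      refine card_nsmul_le_sum _ _ _ fun s hs => (tail_le D B K).trans ?_
      refine measureReal_mono fun x hx i hi => ?_
      have h6 := (mem_filter.1 hs).2 i hi
      have h7 := abs_le.1 (hx i hi)
      by_cases hi' : i.1 ∈ s
      · have : β i = true := by rw [← h6]; simpa using hi'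
        simp only [sd, this, if_true, sig, hi']
        linarith
      · have : β i = false := by rw [← h6]; simpa using hi'
        simp only [sd, this, sig, hi', if_false, Bool.false_eq_true]
        linarith
    unfold ratio
    rw [div_mul_eq_mul_div, div_le_iff₀' hS]
    refine h5.trans (h1.trans ?_)
    gcongr
  have h8 : ratio W D B β * (1 - ε) ≤ (iid V).real (Ev G H B β k0 T (K + 2)) := by
    have := (err_tendsto (Fintype.card D) T).const_add ((iid V).real (Ev G H B β k0 T (K + 2)))
    rw [add_zero] at this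
    exact ge_of_tendsto this (eventually_atTop.2 ⟨k0, key⟩)
  nlinarith

lemma stepB [Countable V] {G : SimpleGraph V} {H : ℕ → SimpleGraph V} (hHG : ∀ n, H n ≤ G)
    (hev : ∀ e ∈ G.edgeSet, ∀ᶠ n in atTop, e ∈ (H n).edgeSet) (B : Finset (Sym2 V))
    (β : Sym2 V → Bool) (k T : ℕ) (K : ℝ) {ε : ℝ} (hε : 0 < ε) :
    ∀ᶠ n in atTop, (iid V).real (Ev G (H n) B β k T K)
      ≤ (iid V).real (Ev G G B β k T (K + 1)) + ε := by
  have h1 : Tendsto (fun n => iid V (Ev G (H n) B β k T K \ Ev G G B β k T (K + 1))) atTop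
      (𝓝 (iid V ∅)) := by
    refine tendsto_measure_of_tendsto_indicator_of_isFiniteMeasure _ _
      (fun n => (measurableSet_Ev ..).diff (measurableSet_Ev ..)) fun U => ?_
    have h2 : ∀ᶠ n in atTop, ∀ e ∈ B, |X (H n) (noise G U) k T e - X G (noise G U) k T e| ≤ 1 := by
      refine (eventually_all_finset B).2 fun e _ => ?_
      have := tendsto_eul hHG hev (1 / 2 ^ k) (noise G U) (T * 2 ^ k) e
      filter_upwards [Metric.tendsto_nhds.1 this 1 one_pos] with n hn
      exact hn.le
    filter_upwards [h2] with n hn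
    simp only [Set.mem_empty_iff_false, iff_false]
    intro h
    exact h.2 fun e he => (sd_le (hn e he)).trans (by linarith [h.1 e he])
  have h3 : Tendsto (fun n => (iid V).real (Ev G (H n) B β k T K \ Ev G G B β k T (K + 1))) atTop
      (𝓝 0) := by
    simpa [Measure.real, Function.comp_def] using (ENNReal.tendsto_toReal (by simp)).comp h1
  filter_upwards [h3.eventually (gt_mem_nhds hε)] with n hn
  have h4 : (iid V).real (Ev G (H n) B β k T K) ≤ (iid V).real (Ev G G B β k T (K + 1))
      + (iid V).real (Ev G (H n) B β k T K \ Ev G G B β k T (K + 1)) := by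
    refine le_trans (measureReal_mono ?_) (measureReal_union_le _ _)
    intro U hU
    by_cases h : U ∈ Ev G G B β k T (K + 1)
    · exact Or.inl h
    · exact Or.inr ⟨hU, h⟩
  linarith

open Classical in
/-- the factor map -/
noncomputable def Phi (G : SimpleGraph V) (U : V → I) (e : Sym2 V) : Bool :=
  decide (∃ K : ℕ, ∀ T : ℕ, ∀ᶠ k in atTop, T - X G (noise G U) k T e ≤ K)

lemma measurable_Phi [Countable V] (e : Sym2 V) :
    Measurable fun p : SimpleGraph V × (V → I) => Phi p.1 p.2 e := by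
  refine measurable_to_bool ?_
  have : (fun p : SimpleGraph V × (V → I) => Phi p.1 p.2 e) ⁻¹' {true}
      = ⋃ K : ℕ, ⋂ T : ℕ, ⋃ a : ℕ, ⋂ k : ℕ, ⋂ _ : a ≤ k,
        {p | T - X p.1 (noise p.1 p.2) k T e ≤ K} := by
    ext p; simp [Phi]
  rw [this]
  refine MeasurableSet.iUnion fun K => MeasurableSet.iInter fun T => MeasurableSet.iUnion fun a =>
    MeasurableSet.iInter fun k => MeasurableSet.iInter fun _ => measurableSet_le
      (measurable_const.sub ?_) measurable_const
  exact (measurable_X k T e).comp (f := fun p : SimpleGraph V × (V → I) => (p.1, p.1, p.2))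
    (by fun_prop)

lemma Phi_map {W : Type*} {G : SimpleGraph V} {G' : SimpleGraph W} (φ : G ≃g G')
    (U : V → I) (U' : W → I) (hU : ∀ v, U' (φ v) = U v) (e : Sym2 V) :
    Phi G' U' (e.map φ) = Phi G U e := by
  have : ∀ k T, X G' (noise G' U') k T (e.map φ) = X G (noise G U) k T e := fun k T =>
    eul_map φ _ _ _ (noise_map φ U U' hU) _ _
  unfold Phi
  exact decide_eq_decide.2 (by simp only [this])

lemma Phi_eq {G : SimpleGraph V} {U : V → I} {e : Sym2 V} {b : Bool} {K : ℕ}
    (h : ∀ T : ℕ, ∀ᶠ k in atTop, sd T b (X G (noise G U) k T e) ≤ K) : Phi G U e = b := by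
  cases b
  · simp only [Phi, decide_eq_false_iff_not, not_exists]
    intro K' hK'
    obtain ⟨k, h1, h2⟩ := ((h (K + K' + 1)).and (hK' (K + K' + 1))).exists
    simp only [sd, Bool.false_eq_true, if_false] at h1
    push_cast at h2
    linarith
  · simp only [Phi, decide_eq_true_eq]
    exact ⟨K, h⟩

lemma ratio_le [Countable V] {G : SimpleGraph V} (hG : ∀ v, (G.neighborSet v).Finite)
    {H : ℕ → SimpleGraph V} (hHG : ∀ n, H n ≤ G)
    (hev : ∀ e ∈ G.edgeSet, ∀ᶠ n in atTop, e ∈ (H n).edgeSet)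
    {W : ℕ → Finset V} {D : ℕ → Finset (Sym2 V)}
    (hD : ∀ n, (↑(D n) : Set (Sym2 V)) = (H n).edgeSet) (hI : ∀ n, Inside (W n) (D n))
    (hne : ∀ n, (trees (W n) (D n)).Nonempty) {B : Finset (Sym2 V)}
    (hB : (↑B : Set (Sym2 V)) ⊆ G.edgeSet) (β : Sym2 V → Bool) {ε : ℝ} (hε : 0 < ε) :
    ∀ᶠ n in atTop, ratio (W n) (D n) B β
      ≤ (iid V).real {U | ∀ e ∈ B, Phi G U e = β e} + ε := by
  -- choice of `K`
  have hK : Tendsto (fun K : ℕ => lap {y | (K : ℝ) < |y|}) atTop (𝓝 (lap ∅)) := by
    refine tendsto_measure_of_tendsto_indicator_of_isFiniteMeasure _ _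
      (fun n => measurableSet_lt measurable_const (by fun_prop)) fun y => ?_
    filter_upwards [tendsto_natCast_atTop_atTop.eventually_ge_atTop |y|] with n hn
    simpa using hn
  have hK' : Tendsto (fun K : ℕ => B.card * lap.real {y | (K : ℝ) < |y|}) atTop (𝓝 0) := by
    have : Tendsto (fun K : ℕ => lap.real {y | (K : ℝ) < |y|}) atTop (𝓝 0) := by
      simpa [Measure.real, Function.comp_def] using (ENNReal.tendsto_toReal (by simp)).comp hK
    simpa using this.const_mul (B.card : ℝ)
  obtain ⟨K, hK1⟩ := (hK'.eventually (gt_mem_nhds (show 0 < ε / 3 by positivity))).exists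
  -- choice of `T`
  let A : ℕ → Set (V → I) := fun T => {U | ∀ᶠ k in atTop, U ∈ Ev G G B β k T (K + 4)}
  have hAm : ∀ T, MeasurableSet (A T) := by
    intro T
    have : A T = ⋃ a : ℕ, ⋂ k : ℕ, ⋂ _ : a ≤ k, Ev G G B β k T (K + 4) := by
      ext U; simp [A]
    rw [this]
    exact MeasurableSet.iUnion fun a => MeasurableSet.iInter fun k =>
      MeasurableSet.iInter fun _ => measurableSet_Ev ..
  have hanti : Antitone A := by
    intro T T' hT U hU
    refine hU.mono fun k hk e he => le_trans ?_ (hk e he)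
    have := X_mono G (noise G U) k hT e
    cases β e
    · exact this.1
    · exact this.2
  have hT : Tendsto (fun T => (iid V).real (A T)) atTop (𝓝 ((iid V).real (⋂ T, A T))) :=
    (ENNReal.tendsto_toReal (measure_ne_top _ _)).comp (tendsto_measure_iInter_atTop
      (fun T => (hAm T).nullMeasurableSet) hanti ⟨0, measure_ne_top _ _⟩)
  obtain ⟨T, hT1⟩ := (hT.eventually (gt_mem_nhds
    (show _ < (iid V).real (⋂ T, A T) + ε / 3 by linarith))).exists
  have hsub : (iid V).real (⋂ T, A T) ≤ (iid V).real {U | ∀ e ∈ B, Phi G U e = β e} := by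
    refine measureReal_mono fun U hU e he => Phi_eq (K := K + 4) fun T => ?_
    refine (Set.mem_iInter.1 hU T).mono fun k hk => ?_
    push_cast
    exact hk e he
  obtain ⟨k0, hk0⟩ := X_cauchy (V := V) T
  have hsub2 : (iid V).real (Ev G G B β k0 T (K + 2 + 1)) ≤ (iid V).real (A T) := by
    refine measureReal_mono fun U hU => eventually_atTop.2 ⟨k0, fun k hk e he => ?_⟩
    have h1 := hk0 k hk G (noise G U) e
    rw [abs_sub_comm] at h1
    exact (sd_le h1).trans (by linarith [hU e he])
  have hBD : ∀ᶠ n in atTop, ∀ e ∈ B, e ∈ (H n).edgeSet :=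
    (eventually_all_finset B).2 fun e he => hev e (hB he)
  filter_upwards [hBD, stepB hHG hev B β k0 T (K + 2) (show 0 < ε / 3 by positivity)] with n h1 h2
  have h3 := stepA hG (hHG n) (hD n) (hI n) (hne n) (B := B)
    (fun e he => by have := h1 e he; rwa [← hD n] at this) β T k0
    (fun k hk => hk0 k hk (H n)) K
  linarith

end Vale.Agent.P143
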